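import Mathlib

/-!
Definitions for the Sherrington-Kirkpatrick Glauber dynamics (problem P150).
-/

open scoped BigOperators ENNReal NNReal

namespace Vale.Agent.Lib.P150

/-- Spin configurations on `n` sites; `true` stands for spin `+1`, `false` for spin `-1`. -/
abbrev Spin (n : ℕ) := Fin n → Bool

/-- The numerical value `±1` of a spin. -/
def sgn (b : Bool) : ℝ := if b then 1 else -1

/-- Index set of the disorder variables: pairs `i < j`. -/
abbrev Pair (n : ℕ) := {p : Fin n × Fin n // p.1 < p.2}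

/-- The law of the disorder: i.i.d. standard Gaussians `g_ij`, `i < j`. -/
noncomputable def disorder (n : ℕ) : MeasureTheory.Measure (Pair n → ℝ) :=
  MeasureTheory.Measure.pi fun _ => ProbabilityTheory.gaussianReal 0 1

/-- The Hamiltonian `n^(-1/2) ∑_{i<j} g_ij x_i x_j`. -/
noncomputable def ham {n : ℕ} (g : Pair n → ℝ) (x : Spin n) : ℝ :=
  (Real.sqrt n)⁻¹ * ∑ p : Pair n, g p * (sgn (x p.1.1) * sgn (x p.1.2))

/-- The zero-field Sherrington-Kirkpatrick Gibbs measure at inverse temperature `β`. -/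
noncomputable def gibbs {n : ℕ} (β : ℝ) (g : Pair n → ℝ) (x : Spin n) : ℝ :=
  Real.exp (β * ham g x) / ∑ y, Real.exp (β * ham g y)

/-- The configuration `x` with the spin at site `i` flipped. -/
def flip {n : ℕ} (i : Fin n) (x : Spin n) : Spin n := Function.update x i (!x i)

/-- The heat-bath kernel `Q_i` at site `i`: from `x`, the spin `x_i` is resampled from its
conditional law under the Gibbs measure given the other spins. -/
noncomputable def heatBath {n : ℕ} (β : ℝ) (g : Pair n → ℝ) (i : Fin n) :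
    Matrix (Spin n) (Spin n) ℝ :=
  fun x y =>
    ((if y = x then gibbs β g x else 0) + (if y = flip i x then gibbs β g (flip i x) else 0)) /
      (gibbs β g x + gibbs β g (flip i x))

/-- The generator `𝓛 = ∑_i (Q_i - I)` of the continuous-time heat-bath dynamics. -/
noncomputable def generator {n : ℕ} (β : ℝ) (g : Pair n → ℝ) : Matrix (Spin n) (Spin n) ℝ :=
  ∑ i, (heatBath β g i - 1)

/-- The continuous-time transition kernel `P_t = exp (t 𝓛)`. -/
noncomputable def kernel {n : ℕ} (β : ℝ) (g : Pair n → ℝ) (t : ℝ) : Matrix (Spin n) (Spin n) ℝ :=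
  NormedSpace.exp (t • generator β g)

/-- Total variation distance between `P_t(x, ·)` and the Gibbs measure. -/
noncomputable def tvDist {n : ℕ} (β : ℝ) (g : Pair n → ℝ) (t : ℝ) (x : Spin n) : ℝ :=
  (1 / 2) * ∑ y, |kernel β g t x y - gibbs β g y|

/-- The mixing time `inf {t ≥ 0 : max_x ‖P_t(x, ·) - μ‖_TV ≤ 1/4}`, as an element of `[0, ∞]`. -/
noncomputable def tmix {n : ℕ} (β : ℝ) (g : Pair n → ℝ) : ℝ≥0∞ :=
  ⨅ (t : ℝ≥0) (_ : ∀ x, tvDist β g t x ≤ 1 / 4), (t : ℝ≥0∞)

/-- Mean under the Gibbs measure. -/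
noncomputable def avg {n : ℕ} (β : ℝ) (g : Pair n → ℝ) (f : Spin n → ℝ) : ℝ :=
  ∑ x, gibbs β g x * f x

/-- Variance under the Gibbs measure. -/
noncomputable def var {n : ℕ} (β : ℝ) (g : Pair n → ℝ) (f : Spin n → ℝ) : ℝ :=
  avg β g (fun x => f x ^ 2) - avg β g f ^ 2

/-- The Dirichlet form `⟨f, -𝓛 f⟩` in `L²(μ)`. -/
noncomputable def dirichlet {n : ℕ} (β : ℝ) (g : Pair n → ℝ) (f : Spin n → ℝ) : ℝ :=
  - avg β g (fun x => f x * (generator β g).mulVec f x)

/-- The spectral gap of `-𝓛` on `L²(μ)`, by the variational formula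
`gap = inf {⟨f, -𝓛 f⟩ / Var f : f nonconstant}`. -/
noncomputable def gap {n : ℕ} (β : ℝ) (g : Pair n → ℝ) : ℝ :=
  sInf {r : ℝ | ∃ f : Spin n → ℝ, 0 < var β g f ∧ r = dirichlet β g f / var β g f}

end Vale.Agent.Lib.P150
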