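import Vale.Agent.Lib.P150.Gibbs

/-!
Derivatives of Gibbs averages and of the mean squared overlap with respect to one disorder
variable.
-/

open scoped BigOperators

namespace Vale.Agent.Lib.P150

variable {n : ℕ}

/-- The product `x_i x_j` attached to a pair `p = (i, j)`. -/
def cp (p : Pair n) (x : Spin n) : ℝ := sgn (x p.1.1) * sgn (x p.1.2)

/-- The product `x_i x_j`. -/
def cc (i j : Fin n) (x : Spin n) : ℝ := sgn (x i) * sgn (x j)

/-- The normalisation `n^(-1/2)`. -/
noncomputable def kap (n : ℕ) : ℝ := (Real.sqrt n)⁻¹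

lemma kap_nonneg : 0 ≤ kap n := by unfold kap; positivity

lemma kap_sq (_hn : 0 < n) : kap n ^ 2 = (n : ℝ)⁻¹ := by
  unfold kap
  rw [inv_pow, Real.sq_sqrt (Nat.cast_nonneg n)]

lemma cp_mul_self (p : Pair n) (x : Spin n) : cp p x * cp p x = 1 := by
  unfold cp
  calc _ = (sgn (x p.1.1) * sgn (x p.1.1)) * (sgn (x p.1.2) * sgn (x p.1.2)) := by ring
    _ = 1 := by rw [sgn_mul_self, sgn_mul_self, one_mul]

lemma abs_cp (p : Pair n) (x : Spin n) : |cp p x| = 1 := by
  unfold cp
  rw [abs_mul, abs_sgn, abs_sgn, one_mul]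

lemma abs_cc (i j : Fin n) (x : Spin n) : |cc i j x| = 1 := by
  unfold cc
  rw [abs_mul, abs_sgn, abs_sgn, one_mul]

lemma ham_eq (g : Pair n → ℝ) (x : Spin n) : ham g x = kap n * ∑ p, g p * cp p x := rfl

lemma ham_update (g : Pair n → ℝ) (p : Pair n) (s : ℝ) (x : Spin n) :
    ham (Function.update g p s) x = ham (Function.update g p 0) x + kap n * cp p x * s := by
  rw [ham_eq, ham_eq]
  have h : ∀ s : ℝ, ∑ q, Function.update g p s q * cp q x =
      s * cp p x + ∑ q ∈ Finset.univ.erase p, g q * cp q x := by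
    intro s
    rw [← Finset.add_sum_erase Finset.univ _ (Finset.mem_univ p), Function.update_self]
    congr 1
    refine Finset.sum_congr rfl fun q hq => ?_
    rw [Function.update_of_ne (Finset.ne_of_mem_erase hq)]
  rw [h, h]
  ring

lemma hasDerivAt_ham (g : Pair n → ℝ) (p : Pair n) (x : Spin n) (t : ℝ) :
    HasDerivAt (fun s => ham (Function.update g p s) x) (kap n * cp p x) t := by
  have h : (fun s => ham (Function.update g p s) x) =
      fun s => ham (Function.update g p 0) x + kap n * cp p x * s := by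
    funext s; exact ham_update g p s x
  rw [h]
  have := ((hasDerivAt_id t).const_mul (kap n * cp p x)).const_add (ham (Function.update g p 0) x)
  simpa using this

lemma avg_eq (β : ℝ) (g : Pair n → ℝ) (F : Spin n → ℝ) :
    avg β g F = (∑ x, Real.exp (β * ham g x) * F x) / ∑ y, Real.exp (β * ham g y) := by
  simp only [avg, gibbs, Finset.sum_div, div_mul_eq_mul_div]

/-- Derivative of a Gibbs average with respect to `g_p`. -/
noncomputable def dAvg (β : ℝ) (G : Pair n → ℝ) (p : Pair n) (F : Spin n → ℝ) : ℝ :=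
  β * kap n * (avg β G (fun x => cp p x * F x) - avg β G F * avg β G (cp p))

lemma hasDerivAt_avg (β : ℝ) (g : Pair n → ℝ) (p : Pair n) (F : Spin n → ℝ) (t : ℝ) :
    HasDerivAt (fun s => avg β (Function.update g p s) F)
      (dAvg β (Function.update g p t) p F) t := by
  set G := Function.update g p t with hG
  have hE : ∀ x, HasDerivAt (fun s => Real.exp (β * ham (Function.update g p s) x))
      (Real.exp (β * ham G x) * (β * (kap n * cp p x))) t := fun x =>
    ((hasDerivAt_ham g p x t).const_mul β).exp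
  have hN : ∀ F' : Spin n → ℝ,
      HasDerivAt (fun s => ∑ x, Real.exp (β * ham (Function.update g p s) x) * F' x)
      (∑ x, Real.exp (β * ham G x) * (β * (kap n * cp p x)) * F' x) t := by
    intro F'
    exact HasDerivAt.fun_sum fun x _ => (hE x).mul_const (F' x)
  have hZ : HasDerivAt (fun s => ∑ x, Real.exp (β * ham (Function.update g p s) x))
      (∑ x, Real.exp (β * ham G x) * (β * (kap n * cp p x))) t :=
    HasDerivAt.fun_sum fun x _ => hE x
  have hZne : (∑ y, Real.exp (β * ham G y)) ≠ 0 := (partition_pos β G).ne'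
  have key := (hN F).fun_div hZ hZne
  have hfun : (fun s => avg β (Function.update g p s) F) = fun s =>
      (∑ x, Real.exp (β * ham (Function.update g p s) x) * F x) /
        ∑ x, Real.exp (β * ham (Function.update g p s) x) := funext fun s => avg_eq β _ F
  rw [hfun]
  refine key.congr_deriv ?_
  set Z := ∑ y, Real.exp (β * ham G y) with hZdef
  have e1 : (∑ x, Real.exp (β * ham G x) * (β * (kap n * cp p x)) * F x) =
      β * kap n * (Z * avg β G (fun x => cp p x * F x)) := by
    rw [avg_eq, ← hZdef, mul_div_cancel₀ _ hZne, Finset.mul_sum]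
    exact Finset.sum_congr rfl fun x _ => by ring
  have e2 : (∑ x, Real.exp (β * ham G x) * (β * (kap n * cp p x))) =
      β * kap n * (Z * avg β G (cp p)) := by
    rw [avg_eq, ← hZdef, mul_div_cancel₀ _ hZne, Finset.mul_sum]
    exact Finset.sum_congr rfl fun x _ => by ring
  have e3 : (∑ x, Real.exp (β * ham G x) * F x) = Z * avg β G F := by
    rw [avg_eq, ← hZdef, mul_div_cancel₀ _ hZne]
  rw [e1, e2, ← hG, e3, dAvg]
  field_simp

lemma corr_eq_avg_cc (β : ℝ) (g : Pair n → ℝ) (i j : Fin n) :
    corr β g i j = avg β g (cc i j) := rfl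

/-- Derivative of the mean squared overlap with respect to `g_p`. -/
noncomputable def dOvl (β : ℝ) (G : Pair n → ℝ) (p : Pair n) : ℝ :=
  ((n : ℝ) ^ 2)⁻¹ * ∑ i, ∑ j, (2 * corr β G i j * dAvg β G p (cc i j))

lemma hasDerivAt_ovl (β : ℝ) (g : Pair n → ℝ) (p : Pair n) (t : ℝ) :
    HasDerivAt (fun s => ovl β (Function.update g p s)) (dOvl β (Function.update g p t) p) t := by
  unfold ovl dOvl
  refine HasDerivAt.const_mul _ ?_
  refine HasDerivAt.fun_sum fun i _ => HasDerivAt.fun_sum fun j _ => ?_
  have h := (hasDerivAt_avg β g p (cc i j) t).fun_pow 2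
  exact h.congr_deriv (by simp [corr_eq_avg_cc])

lemma corr_comm (β : ℝ) (g : Pair n → ℝ) (i j : Fin n) : corr β g i j = corr β g j i := by
  simp only [corr, mul_comm]

/-- The pair-sum rearrangement of a symmetric double sum. -/
lemma sum_sum_eq_pairs (a : Fin n → Fin n → ℝ) (hsym : ∀ i j, a i j = a j i) :
    ∑ i, ∑ j, a i j = ∑ i, a i i + 2 * ∑ p : Pair n, a p.1.1 p.1.2 := by
  have htri : ∀ i j, a i j = (if i < j then a i j else 0) + (if i = j then a i j else 0) +
      (if j < i then a j i else 0) := by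
    intro i j
    rcases lt_trichotomy i j with h | h | h
    · simp [h, h.ne, not_lt.mpr h.le]
    · subst h; simp
    · simp [h, h.ne', not_lt.mpr h.le, hsym i j]
  have h1 : ∑ i, ∑ j, (if i < j then a i j else 0) = ∑ p : Pair n, a p.1.1 p.1.2 := by
    rw [← Fintype.sum_prod_type' (f := fun i j => if i < j then a i j else 0)]
    rw [← Finset.sum_filter]
    exact Finset.sum_subtype _ (by simp) (fun z : Fin n × Fin n => a z.1 z.2)
  have h2 : ∑ i, ∑ j, (if i = j then a i j else 0) = ∑ i, a i i := by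
    refine Finset.sum_congr rfl fun i _ => ?_
    simp
  have h3 : ∑ i, ∑ j, (if j < i then a j i else 0) = ∑ p : Pair n, a p.1.1 p.1.2 := by
    rw [Finset.sum_comm, h1]
  calc ∑ i, ∑ j, a i j
      = ∑ i, ∑ j, ((if i < j then a i j else 0) + (if i = j then a i j else 0) +
          (if j < i then a j i else 0)) :=
        Finset.sum_congr rfl fun i _ => Finset.sum_congr rfl fun j _ => htri i j
    _ = _ := by
        simp only [Finset.sum_add_distrib]
        rw [h1, h2, h3]
        ring

lemma card_pairs (n : ℕ) : (Fintype.card (Pair n) : ℝ) = ((n : ℝ) ^ 2 - n) / 2 := by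
  have := sum_sum_eq_pairs (n := n) (fun _ _ => (1 : ℝ)) (fun _ _ => rfl)
  simp only [Finset.sum_const, Finset.card_univ, Fintype.card_fin, nsmul_eq_mul, mul_one] at this
  have e : (n : ℝ) * n = (n : ℝ) ^ 2 := by ring
  rw [e] at this
  linarith

/-! ### The function `w(x) = ∑_{i,j} ⟨y_i y_j⟩ x_i x_j` -/

/-- The function `w(x) = ∑_{i,j} ⟨y_i y_j⟩ x_i x_j`, i.e. the mean of `⟨x, y⟩²` over `y`. -/
noncomputable def wf (β : ℝ) (G : Pair n → ℝ) (x : Spin n) : ℝ :=
  ∑ i, ∑ j, corr β G i j * cc i j x

lemma wf_eq_avg (β : ℝ) (G : Pair n → ℝ) (x : Spin n) :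
    wf β G x = avg β G (fun y => ovf x y ^ 2) := by
  rw [avg_ovf_sq]
  refine Finset.sum_congr rfl fun i _ => Finset.sum_congr rfl fun j _ => ?_
  simp only [cc]
  ring

lemma wf_nonneg (β : ℝ) (G : Pair n → ℝ) (x : Spin n) : 0 ≤ wf β G x := by
  rw [wf_eq_avg]
  exact Finset.sum_nonneg fun y _ => mul_nonneg (gibbs_pos β G y).le (sq_nonneg _)

lemma wf_le (β : ℝ) (G : Pair n → ℝ) (x : Spin n) : wf β G x ≤ (n : ℝ) ^ 2 := by
  rw [wf_eq_avg]
  have h : ∀ y, ovf x y ^ 2 ≤ (n : ℝ) ^ 2 := by
    intro y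
    exact sq_le_sq' (by linarith [(abs_le.mp (abs_ovf_le x y)).1]) (abs_le.mp (abs_ovf_le x y)).2
  have := avg_mono β G h
  rwa [avg_const] at this

lemma avg_wf (β : ℝ) (G : Pair n → ℝ) (hn : 0 < n) :
    avg β G (wf β G) = (n : ℝ) ^ 2 * ovl β G := by
  have hn' : (n : ℝ) ≠ 0 := by exact_mod_cast hn.ne'
  have e : wf β G = fun x => ∑ i, ∑ j, corr β G i j * cc i j x := rfl
  rw [e, avg_sum]
  have : ∀ i, avg β G (fun x => ∑ j, corr β G i j * cc i j x) =
      ∑ j, corr β G i j ^ 2 := by
    intro i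
    rw [avg_sum]
    refine Finset.sum_congr rfl fun j _ => ?_
    rw [avg_mul_left, ← corr_eq_avg_cc, sq]
  simp only [this, ovl]
  field_simp

/-- `u(x) = ∑_p ⟨c_p⟩ c_p(x)`. -/
noncomputable def uf (β : ℝ) (G : Pair n → ℝ) (x : Spin n) : ℝ :=
  ∑ p : Pair n, avg β G (cp p) * cp p x

lemma avg_cp (β : ℝ) (G : Pair n → ℝ) (p : Pair n) :
    avg β G (cp p) = corr β G p.1.1 p.1.2 := rfl

lemma cc_comm (i j : Fin n) (x : Spin n) : cc i j x = cc j i x := by
  simp only [cc, mul_comm]

lemma wf_eq_uf (β : ℝ) (G : Pair n → ℝ) (x : Spin n) :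
    wf β G x = n + 2 * uf β G x := by
  rw [wf, sum_sum_eq_pairs (fun i j => corr β G i j * cc i j x)
    (fun i j => by rw [corr_comm, cc_comm])]
  congr 1
  have : ∀ i, corr β G i i * cc i i x = 1 := by
    intro i
    rw [corr_self, one_mul, cc, sgn_mul_self]
  simp [this]

lemma sum_corr_sq (β : ℝ) (G : Pair n → ℝ) :
    ∑ i, ∑ j, corr β G i j ^ 2 = n + 2 * ∑ p : Pair n, avg β G (cp p) ^ 2 := by
  rw [sum_sum_eq_pairs (fun i j => corr β G i j ^ 2) (fun i j => by rw [corr_comm])]
  congr 1
  simp [corr_self]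

lemma avg_uf (β : ℝ) (G : Pair n → ℝ) :
    avg β G (uf β G) = ∑ p : Pair n, avg β G (cp p) ^ 2 := by
  have e : uf β G = fun x => ∑ p : Pair n, avg β G (cp p) * cp p x := rfl
  rw [e, avg_sum]
  refine Finset.sum_congr rfl fun p _ => ?_
  rw [avg_mul_left, sq]

/-- The key identity: the sum of the derivatives of `Q` weighted by `⟨c_p⟩`. -/
lemma sum_dOvl_mul (β : ℝ) (G : Pair n → ℝ) :
    ∑ p : Pair n, dOvl β G p * avg β G (cp p) =
      ((n : ℝ) ^ 2)⁻¹ * (β * kap n) * var β G (wf β G) := by
  -- expand `dOvl`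
  have h1 : ∀ p : Pair n, dOvl β G p * avg β G (cp p) =
      ((n : ℝ) ^ 2)⁻¹ * (2 * (β * kap n)) * (avg β G (cp p) *
        (avg β G (fun x => cp p x * wf β G x) - avg β G (wf β G) * avg β G (cp p))) := by
    intro p
    have e1 : ∑ i, ∑ j, (2 * corr β G i j * dAvg β G p (cc i j)) =
        2 * (β * kap n) * (avg β G (fun x => cp p x * wf β G x) -
          avg β G (wf β G) * avg β G (cp p)) := by
      have e2 : avg β G (fun x => cp p x * wf β G x) =
          ∑ i, ∑ j, corr β G i j * avg β G (fun x => cp p x * cc i j x) := by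
        have : (fun x => cp p x * wf β G x) =
            fun x => ∑ i, ∑ j, corr β G i j * (cp p x * cc i j x) := by
          funext x
          simp only [wf, Finset.mul_sum]
          refine Finset.sum_congr rfl fun i _ => Finset.sum_congr rfl fun j _ => ?_
          ring
        rw [this, avg_sum]
        refine Finset.sum_congr rfl fun i _ => ?_
        rw [avg_sum]
        refine Finset.sum_congr rfl fun j _ => ?_
        rw [avg_mul_left]
      have e3 : avg β G (wf β G) = ∑ i, ∑ j, corr β G i j ^ 2 := by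
        have e : wf β G = fun x => ∑ i, ∑ j, corr β G i j * cc i j x := rfl
        rw [e, avg_sum]
        refine Finset.sum_congr rfl fun i _ => ?_
        rw [avg_sum]
        refine Finset.sum_congr rfl fun j _ => ?_
        rw [avg_mul_left, ← corr_eq_avg_cc, sq]
      rw [e2, e3, Finset.sum_mul, ← Finset.sum_sub_distrib, Finset.mul_sum]
      refine Finset.sum_congr rfl fun i _ => ?_
      rw [Finset.sum_mul, ← Finset.sum_sub_distrib, Finset.mul_sum]
      refine Finset.sum_congr rfl fun j _ => ?_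
      simp only [dAvg, ← corr_eq_avg_cc]
      ring
    rw [dOvl, e1]
    ring
  simp only [h1]
  rw [← Finset.mul_sum]
  -- the covariance of `u` and `w`
  have h2 : ∑ p : Pair n, (avg β G (cp p) *
      (avg β G (fun x => cp p x * wf β G x) - avg β G (wf β G) * avg β G (cp p))) =
      avg β G (fun x => uf β G x * wf β G x) - avg β G (wf β G) * avg β G (uf β G) := by
    have e1 : avg β G (fun x => uf β G x * wf β G x) =
        ∑ p : Pair n, avg β G (cp p) * avg β G (fun x => cp p x * wf β G x) := by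
      have : (fun x => uf β G x * wf β G x) =
          fun x => ∑ p : Pair n, avg β G (cp p) * (cp p x * wf β G x) := by
        funext x
        simp only [uf, Finset.sum_mul]
        refine Finset.sum_congr rfl fun p _ => ?_
        ring
      rw [this, avg_sum]
      refine Finset.sum_congr rfl fun p _ => ?_
      rw [avg_mul_left]
    rw [e1, avg_uf, Finset.mul_sum, ← Finset.sum_sub_distrib]
    refine Finset.sum_congr rfl fun p _ => ?_
    ring
  rw [h2]
  -- `w = n + 2 u`
  have h3 : avg β G (fun x => uf β G x * wf β G x) - avg β G (wf β G) * avg β G (uf β G) =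
      (1 / 2) * var β G (wf β G) := by
    have e : ∀ x, uf β G x = (1 / 2) * wf β G x + (-(n : ℝ) / 2) := by
      intro x
      rw [wf_eq_uf]
      ring
    have e1 : avg β G (uf β G) = (1 / 2) * avg β G (wf β G) + (-(n : ℝ) / 2) := by
      have : uf β G = fun x => (1 / 2) * wf β G x + (-(n : ℝ) / 2) := funext e
      rw [this, avg_add, avg_mul_left, avg_const]
    have e2 : avg β G (fun x => uf β G x * wf β G x) =
        (1 / 2) * avg β G (fun x => wf β G x ^ 2) + (-(n : ℝ) / 2) * avg β G (wf β G) := by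
      have : (fun x => uf β G x * wf β G x) =
          fun x => (1 / 2) * wf β G x ^ 2 + (-(n : ℝ) / 2) * wf β G x := by
        funext x
        rw [e x]
        ring
      rw [this, avg_add, avg_mul_left, avg_mul_left]
    rw [e1, e2, var]
    ring
  rw [h3]
  ring

lemma var_wf_le (hn : 0 < n) (β : ℝ) (G : Pair n → ℝ) :
    var β G (wf β G) ≤ (n : ℝ) ^ 4 * ovl β G := by
  have h1 : avg β G (fun x => wf β G x ^ 2) ≤ avg β G (fun x => (n : ℝ) ^ 2 * wf β G x) := by
    refine avg_mono β G fun x => ?_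
    have h0 := wf_nonneg β G x
    have h1 := wf_le β G x
    nlinarith
  rw [avg_mul_left, avg_wf β G hn] at h1
  have : var β G (wf β G) ≤ avg β G (fun x => wf β G x ^ 2) := by
    rw [var]
    nlinarith [sq_nonneg (avg β G (wf β G))]
  calc _ ≤ _ := this
    _ ≤ _ := h1
    _ = _ := by ring

end Vale.Agent.Lib.P150
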