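import Mathlib

/-!
Abstract facts on a reversible positive semidefinite Markov operator `A` in `L²(μ)` on a finite
set: log-convexity of moments, the resulting lower bound for correlations of `exp (t (A - 1))`,
and the resulting lower bound for the mixing time.
-/

open scoped BigOperators Matrix Nat
open NormedSpace

namespace Vale.Agent.Lib.P150

set_option linter.unusedSectionVars false

variable {X : Type*} [Fintype X] [DecidableEq X]

/-- weighted inner product -/
noncomputable def ip (μ : X → ℝ) (u v : X → ℝ) : ℝ := ∑ x, μ x * (u x * v x)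

lemma ip_comm (μ : X → ℝ) (u v : X → ℝ) : ip μ u v = ip μ v u := by
  simp [ip, mul_comm]

lemma ip_add_left (μ : X → ℝ) (u u' v : X → ℝ) : ip μ (u + u') v = ip μ u v + ip μ u' v := by
  simp [ip, add_mul, mul_add, Finset.sum_add_distrib]

lemma ip_smul_left (μ : X → ℝ) (c : ℝ) (u v : X → ℝ) : ip μ (c • u) v = c * ip μ u v := by
  simp only [ip, Finset.mul_sum]
  refine Finset.sum_congr rfl fun x _ => ?_
  simp only [Pi.smul_apply, smul_eq_mul]
  ring

lemma ip_self_nonneg {μ : X → ℝ} (hμ : ∀ x, 0 ≤ μ x) (u : X → ℝ) : 0 ≤ ip μ u u := by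
  exact Finset.sum_nonneg fun x _ => mul_nonneg (hμ x) (mul_self_nonneg _)

/-- Cauchy-Schwarz for a symmetric positive semidefinite bilinear form. -/
lemma cs_form (b : (X → ℝ) → (X → ℝ) → ℝ) (hs : ∀ u v, b u v = b v u)
    (ha : ∀ u u' v, b (u + u') v = b u v + b u' v) (hm : ∀ (c : ℝ) u v, b (c • u) v = c * b u v)
    (hp : ∀ u, 0 ≤ b u u) (u v : X → ℝ) : b u v ^ 2 ≤ b u u * b v v := by
  have key : ∀ t : ℝ, 0 ≤ b v v * (t * t) + (2 * b u v) * t + b u u := by
    intro t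
    have h := hp (u + t • v)
    have e1 : b u (u + t • v) = b u u + t * b u v := by
      rw [hs u (u + t • v), ha, hm, hs v u]
    have e2 : b v (u + t • v) = b u v + t * b v v := by
      rw [hs v (u + t • v), ha, hm, hs u v]
    have e : b (u + t • v) (u + t • v) = b u u + 2 * t * b u v + t * t * b v v := by
      rw [ha, hm, e1, e2]
      ring
    rw [e] at h
    nlinarith [h]
  have := discrim_le_zero key
  simp only [discrim] at this
  nlinarith [this]

section moments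

variable {μ : X → ℝ} {A : Matrix X X ℝ}

/-- moments `⟨f, A^k f⟩`. -/
noncomputable def mom (μ : X → ℝ) (A : Matrix X X ℝ) (f : X → ℝ) (k : ℕ) : ℝ :=
  ip μ f ((A ^ k).mulVec f)

lemma ip_pow_eq (hsa : ∀ u v, ip μ (A.mulVec u) v = ip μ u (A.mulVec v)) (f : X → ℝ) (a b : ℕ) :
    ip μ ((A ^ a).mulVec f) ((A ^ b).mulVec f) = mom μ A f (a + b) := by
  induction a generalizing b with
  | zero => simp [mom]
  | succ a ih =>
    rw [pow_succ' A a, ← Matrix.mulVec_mulVec, hsa, Matrix.mulVec_mulVec, ← pow_succ' A b, ih]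
    congr 1
    omega

lemma mom_logconvex (hμ : ∀ x, 0 ≤ μ x)
    (hsa : ∀ u v, ip μ (A.mulVec u) v = ip μ u (A.mulVec v))
    (hpsd : ∀ u, 0 ≤ ip μ u (A.mulVec u)) (f : X → ℝ) (k : ℕ) :
    mom μ A f (k + 1) ^ 2 ≤ mom μ A f k * mom μ A f (k + 2) := by
  obtain ⟨m, hm | hm⟩ := Nat.even_or_odd' k
  · -- even case: ordinary Cauchy-Schwarz
    subst hm
    have h := cs_form (ip μ) (ip_comm μ) (ip_add_left μ) (ip_smul_left μ) (ip_self_nonneg hμ)
      ((A ^ m).mulVec f) ((A ^ (m + 1)).mulVec f)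
    rw [ip_pow_eq hsa, ip_pow_eq hsa, ip_pow_eq hsa] at h
    rw [show 2 * m + 1 = m + (m + 1) by omega, show 2 * m + 2 = m + 1 + (m + 1) by omega,
      show 2 * m = m + m by omega]
    exact h
  · -- odd case: Cauchy-Schwarz for the form `⟨u, A v⟩`
    subst hm
    have hs' : ∀ u v, ip μ u (A.mulVec v) = ip μ v (A.mulVec u) := by
      intro u v
      rw [← hsa, ip_comm]
    have ha' : ∀ u u' v, ip μ (u + u') (A.mulVec v) = ip μ u (A.mulVec v) + ip μ u' (A.mulVec v) :=
      fun u u' v => ip_add_left μ u u' _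
    have hm' : ∀ (c : ℝ) u v, ip μ (c • u) (A.mulVec v) = c * ip μ u (A.mulVec v) :=
      fun c u v => ip_smul_left μ c u _
    have h := cs_form (fun u v => ip μ u (A.mulVec v)) hs' ha' hm' hpsd
      ((A ^ m).mulVec f) ((A ^ (m + 1)).mulVec f)
    have e1 : ∀ b, A.mulVec ((A ^ b).mulVec f) = (A ^ (b + 1)).mulVec f := by
      intro b
      rw [Matrix.mulVec_mulVec, pow_succ' A b]
    simp only [e1] at h
    rw [ip_pow_eq hsa, ip_pow_eq hsa, ip_pow_eq hsa] at h
    rw [show 2 * m + 1 + 2 = m + 1 + (m + 1 + 1) by omega,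
      show 2 * m + 1 + 1 = m + (m + 1 + 1) by omega, show 2 * m + 1 = m + (m + 1) by omega]
    exact h

lemma mom_nonneg (hμ : ∀ x, 0 ≤ μ x)
    (hsa : ∀ u v, ip μ (A.mulVec u) v = ip μ u (A.mulVec v))
    (hpsd : ∀ u, 0 ≤ ip μ u (A.mulVec u)) (f : X → ℝ) (k : ℕ) : 0 ≤ mom μ A f k := by
  obtain ⟨m, hm | hm⟩ := Nat.even_or_odd' k
  · subst hm
    have := ip_self_nonneg hμ ((A ^ m).mulVec f)
    rw [ip_pow_eq hsa] at this
    convert this using 2
    omega
  · subst hm
    have := hpsd ((A ^ m).mulVec f)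
    have e1 : A.mulVec ((A ^ m).mulVec f) = (A ^ (m + 1)).mulVec f := by
      rw [Matrix.mulVec_mulVec, pow_succ' A m]
    rw [e1, ip_pow_eq hsa] at this
    convert this using 2
    omega

lemma mom_succ_ge (hμ : ∀ x, 0 ≤ μ x)
    (hsa : ∀ u v, ip μ (A.mulVec u) v = ip μ u (A.mulVec v))
    (hpsd : ∀ u, 0 ≤ ip μ u (A.mulVec u)) (f : X → ℝ) (hs0 : 0 < mom μ A f 0) (k : ℕ) :
    mom μ A f 1 / mom μ A f 0 * mom μ A f k ≤ mom μ A f (k + 1) := by
  set ρ := mom μ A f 1 / mom μ A f 0 with hρ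
  induction k with
  | zero =>
    simp only [zero_add]
    rw [hρ, div_mul_cancel₀ _ hs0.ne']
  | succ k ih =>
    have hlc := mom_logconvex hμ hsa hpsd f k
    have hk0 := mom_nonneg hμ hsa hpsd f k
    have hk1 := mom_nonneg hμ hsa hpsd f (k + 1)
    have hk2 := mom_nonneg hμ hsa hpsd f (k + 2)
    rcases hk0.eq_or_lt with h0 | h0
    · -- `mom k = 0` forces `mom (k+1) = 0`
      have : mom μ A f (k + 1) ^ 2 ≤ 0 := by
        rw [← h0] at hlc
        simpa using hlc
      have h1 : mom μ A f (k + 1) = 0 := by nlinarith [sq_nonneg (mom μ A f (k + 1))]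
      rw [h1]
      simpa using hk2
    · have : ρ * mom μ A f (k + 1) * mom μ A f k ≤ mom μ A f (k + 2) * mom μ A f k := by
        nlinarith [mul_le_mul_of_nonneg_right ih hk1]
      exact le_of_mul_le_mul_right this h0

lemma mom_ge_pow (hμ : ∀ x, 0 ≤ μ x)
    (hsa : ∀ u v, ip μ (A.mulVec u) v = ip μ u (A.mulVec v))
    (hpsd : ∀ u, 0 ≤ ip μ u (A.mulVec u)) (f : X → ℝ) (hs0 : 0 < mom μ A f 0) (k : ℕ) :
    mom μ A f 0 * (mom μ A f 1 / mom μ A f 0) ^ k ≤ mom μ A f k := by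
  have hρ : 0 ≤ mom μ A f 1 / mom μ A f 0 :=
    div_nonneg (mom_nonneg hμ hsa hpsd f 1) hs0.le
  induction k with
  | zero => simp
  | succ k ih =>
    have := mom_succ_ge hμ hsa hpsd f hs0 k
    calc mom μ A f 0 * (mom μ A f 1 / mom μ A f 0) ^ (k + 1)
        = (mom μ A f 1 / mom μ A f 0) * (mom μ A f 0 * (mom μ A f 1 / mom μ A f 0) ^ k) := by ring
      _ ≤ (mom μ A f 1 / mom μ A f 0) * mom μ A f k := mul_le_mul_of_nonneg_left ih hρ
      _ ≤ mom μ A f (k + 1) := this

end moments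

section expo

variable {μ : X → ℝ} {A : Matrix X X ℝ}

/-- Decomposition `exp (t (A - 1)) = e^{-t} exp (t A)`. -/
lemma exp_smul_sub_one (t : ℝ) (A : Matrix X X ℝ) :
    exp (t • (A - 1)) = Real.exp (-t) • exp (t • A) := by
  have hc : Commute (t • A) ((-t) • (1 : Matrix X X ℝ)) :=
    ((Commute.one_right A).smul_right _).smul_left _
  have e : t • (A - 1) = t • A + (-t) • (1 : Matrix X X ℝ) := by
    rw [smul_sub, neg_smul]; abel
  rw [e, Matrix.exp_add_of_commute _ _ hc]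
  have h1 : exp ((-t) • (1 : Matrix X X ℝ)) = Real.exp (-t) • (1 : Matrix X X ℝ) := by
    have e0 : (-t) • (1 : Matrix X X ℝ) = Matrix.diagonal (fun _ => -t) := by
      ext i j
      by_cases hij : i = j <;> simp [hij]
    rw [e0, Matrix.exp_diagonal]
    ext i j
    by_cases hij : i = j <;> simp [hij, Real.exp_eq_exp_ℝ]
  rw [h1, mul_smul_comm, mul_one]

/-- Series expansion of a continuous linear functional along `exp (t A)`. -/
lemma hasSum_exp_apply (Φ : Matrix X X ℝ →ₗ[ℝ] ℝ) (t : ℝ) (A : Matrix X X ℝ) :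
    HasSum (fun k : ℕ => ((k ! : ℝ)⁻¹ * t ^ k) * Φ (A ^ k)) (Φ (exp (t • A))) := by
  have hcont : Continuous Φ := LinearMap.continuous_of_finiteDimensional Φ
  have h : HasSum (fun k : ℕ => ((k ! : ℝ)⁻¹) • (t • A) ^ k) (exp (t • A)) := by
    open scoped Matrix.Norms.Operator in
    exact NormedSpace.exp_series_hasSum_exp' (𝕂 := ℝ) (t • A)
  have h2 := h.map Φ hcont
  convert h2 using 1
  funext k
  simp only [Function.comp_apply, smul_pow, map_smul, smul_eq_mul]
  ring

lemma ip_add_right (μ : X → ℝ) (u v v' : X → ℝ) : ip μ u (v + v') = ip μ u v + ip μ u v' := by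
  rw [ip_comm, ip_add_left, ip_comm μ v, ip_comm μ v']

lemma ip_smul_right (μ : X → ℝ) (c : ℝ) (u v : X → ℝ) : ip μ u (c • v) = c * ip μ u v := by
  rw [ip_comm, ip_smul_left, ip_comm μ v]

/-- the linear functional `M ↦ ⟨u, M f⟩`. -/
noncomputable def corrFun (μ : X → ℝ) (u f : X → ℝ) : Matrix X X ℝ →ₗ[ℝ] ℝ where
  toFun M := ip μ u (M.mulVec f)
  map_add' M N := by rw [Matrix.add_mulVec, ip_add_right]
  map_smul' c M := by
    rw [Matrix.smul_mulVec, ip_smul_right]
    rfl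

lemma corrFun_apply (μ : X → ℝ) (u f : X → ℝ) (M : Matrix X X ℝ) :
    corrFun μ u f M = ip μ u (M.mulVec f) := rfl

lemma real_exp_hasSum (x : ℝ) : HasSum (fun k : ℕ => ((k ! : ℝ)⁻¹) * x ^ k) (Real.exp x) := by
  have := NormedSpace.exp_series_hasSum_exp' (𝕂 := ℝ) x
  rw [Real.exp_eq_exp_ℝ]
  simpa using this

/-- Lower bound for correlations along the semigroup. -/
lemma corr_exp_ge (hμ : ∀ x, 0 ≤ μ x)
    (hsa : ∀ u v, ip μ (A.mulVec u) v = ip μ u (A.mulVec v))
    (hpsd : ∀ u, 0 ≤ ip μ u (A.mulVec u)) (f : X → ℝ) (hs0 : 0 < mom μ A f 0) {t : ℝ}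
    (ht : 0 ≤ t) :
    mom μ A f 0 * Real.exp (-t * (1 - mom μ A f 1 / mom μ A f 0)) ≤
      ip μ f ((exp (t • (A - 1))).mulVec f) := by
  set s0 := mom μ A f 0 with hs0def
  set ρ := mom μ A f 1 / s0 with hρ
  have hsum := hasSum_exp_apply (corrFun μ f f) t A
  have hsum2 : HasSum (fun k : ℕ => ((k ! : ℝ)⁻¹ * t ^ k) * (s0 * ρ ^ k))
      (s0 * Real.exp (t * ρ)) := by
    have := (real_exp_hasSum (t * ρ)).mul_left s0
    have e : (fun k : ℕ => ((k ! : ℝ)⁻¹ * t ^ k) * (s0 * ρ ^ k)) =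
        fun k : ℕ => s0 * ((k ! : ℝ)⁻¹ * (t * ρ) ^ k) := by
      funext k
      rw [mul_pow]
      ring
    rw [e]
    exact this
  have hle : s0 * Real.exp (t * ρ) ≤ corrFun μ f f (exp (t • A)) := by
    refine hasSum_le (fun k => ?_) hsum2 hsum
    refine mul_le_mul_of_nonneg_left ?_ (by positivity)
    exact mom_ge_pow hμ hsa hpsd f hs0 k
  rw [exp_smul_sub_one, Matrix.smul_mulVec, ip_smul_right]
  rw [corrFun_apply] at hle
  have hexp : s0 * Real.exp (-t * (1 - ρ)) = Real.exp (-t) * (s0 * Real.exp (t * ρ)) := by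
    have : -t * (1 - ρ) = -t + t * ρ := by ring
    rw [this, Real.exp_add]
    ring
  rw [hexp]
  exact mul_le_mul_of_nonneg_left hle (Real.exp_pos _).le

/-- Stationarity of `μ` along the semigroup. -/
lemma ip_exp_one (hsa : ∀ u v, ip μ (A.mulVec u) v = ip μ u (A.mulVec v))
    (hone : A.mulVec (1 : X → ℝ) = 1) (t : ℝ) (u : X → ℝ) :
    ip μ ((exp (t • (A - 1))).mulVec u) 1 = ip μ u 1 := by
  have hpow : ∀ k : ℕ, corrFun μ 1 u (A ^ k) = ip μ u 1 := by
    intro k
    induction k with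
    | zero => simp [corrFun_apply, ip_comm]
    | succ k ih =>
      rw [corrFun_apply, pow_succ', ← Matrix.mulVec_mulVec, ip_comm, hsa, hone, ← ih, corrFun_apply,
        ip_comm]
  have hsum := hasSum_exp_apply (corrFun μ 1 u) t A
  simp only [hpow] at hsum
  have hsum2 : HasSum (fun k : ℕ => ((k ! : ℝ)⁻¹ * t ^ k) * ip μ u 1)
      (Real.exp t * ip μ u 1) := (real_exp_hasSum t).mul_right _
  have heq := hsum.unique hsum2
  rw [corrFun_apply] at heq
  rw [exp_smul_sub_one, Matrix.smul_mulVec, ip_smul_left, ip_comm, heq, ← mul_assoc,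
    ← Real.exp_add]
  simp

/-- The mixing-time bound: if `exp (τ (A - 1))` is within total variation `1/4` of `μ` from every
starting point, then `log 2 ≤ τ (1 - ρ)` for the Rayleigh quotient `ρ` of any zero-mean `f`. -/
theorem log_two_le_of_tv (hμ : ∀ x, 0 ≤ μ x) (hμ1 : ∑ x, μ x = 1)
    (hsa : ∀ u v, ip μ (A.mulVec u) v = ip μ u (A.mulVec v))
    (hpsd : ∀ u, 0 ≤ ip μ u (A.mulVec u)) (hone : A.mulVec (1 : X → ℝ) = 1)
    (f : X → ℝ) (hs0 : 0 < mom μ A f 0) (hf0 : ip μ f 1 = 0) {B : ℝ} (hB : ∀ x, |f x| ≤ B)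
    {τ : ℝ} (hτ : 0 ≤ τ)
    (htv : ∀ x, ∑ y, |(exp (τ • (A - 1))) x y - μ y| ≤ 1 / 2) :
    Real.log 2 ≤ τ * (1 - mom μ A f 1 / mom μ A f 0) := by
  set P := exp (τ • (A - 1)) with hP
  set s0 := mom μ A f 0 with hs0def
  set ρ := mom μ A f 1 / s0 with hρ
  have hB0 : 0 ≤ B := by
    obtain ⟨x⟩ : Nonempty X := by
      by_contra hne
      rw [not_nonempty_iff] at hne
      simp at hμ1
    exact (abs_nonneg _).trans (hB x)
  -- contraction on zero-mean functions
  have hstep : ∀ (g : X → ℝ) (C : ℝ), (∀ x, |g x| ≤ C) → ip μ g 1 = 0 →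
      (∀ x, |P.mulVec g x| ≤ (1 / 2) * C) ∧ ip μ (P.mulVec g) 1 = 0 := by
    intro g C hg hg0
    have hC0 : 0 ≤ C := by
      obtain ⟨x⟩ : Nonempty X := by
        by_contra hne
        rw [not_nonempty_iff] at hne
        simp at hμ1
      exact (abs_nonneg _).trans (hg x)
    constructor
    · intro x
      have e : P.mulVec g x = ∑ y, (P x y - μ y) * g y := by
        have : ∑ y, μ y * g y = 0 := by
          simpa [ip] using hg0
        simp only [sub_mul, Finset.sum_sub_distrib, this, sub_zero, Matrix.mulVec, dotProduct]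
      rw [e]
      calc |∑ y, (P x y - μ y) * g y| ≤ ∑ y, |(P x y - μ y) * g y| :=
            Finset.abs_sum_le_sum_abs _ _
        _ ≤ ∑ y, |P x y - μ y| * C := by
            refine Finset.sum_le_sum fun y _ => ?_
            rw [abs_mul]
            exact mul_le_mul_of_nonneg_left (hg y) (abs_nonneg _)
        _ = (∑ y, |P x y - μ y|) * C := by rw [Finset.sum_mul]
        _ ≤ (1 / 2) * C := mul_le_mul_of_nonneg_right (htv x) hC0
    · rw [hP, ip_exp_one hsa hone, hg0]
  -- iterate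
  have hiter : ∀ k : ℕ, (∀ x, |(P ^ k).mulVec f x| ≤ (1 / 2) ^ k * B) ∧
      ip μ ((P ^ k).mulVec f) 1 = 0 := by
    intro k
    induction k with
    | zero =>
      simp only [pow_zero, Matrix.one_mulVec, one_mul]
      exact ⟨hB, hf0⟩
    | succ k ih =>
      have := hstep _ _ ih.1 ih.2
      rw [pow_succ', ← Matrix.mulVec_mulVec]
      refine ⟨fun x => ?_, this.2⟩
      have h := this.1 x
      calc _ ≤ _ := h
        _ = _ := by ring
  -- `P^k` is the semigroup at time `k τ`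
  have hpow : ∀ k : ℕ, P ^ k = exp (((k : ℝ) * τ) • (A - 1)) := by
    intro k
    rw [hP, ← Matrix.exp_nsmul, ← Nat.cast_smul_eq_nsmul ℝ, smul_smul]
  have hkey : ∀ k : ℕ, s0 * Real.exp (-((k : ℝ) * τ) * (1 - ρ)) ≤ (1 / 2) ^ k * B * B := by
    intro k
    have hk : 0 ≤ (k : ℝ) * τ := mul_nonneg (Nat.cast_nonneg _) hτ
    have h1 := corr_exp_ge hμ hsa hpsd f hs0 hk
    rw [← hpow] at h1
    refine h1.trans ?_
    calc ip μ f ((P ^ k).mulVec f) ≤ ∑ x, μ x * (B * ((1 / 2) ^ k * B)) := by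
          refine Finset.sum_le_sum fun x _ => mul_le_mul_of_nonneg_left ?_ (hμ x)
          calc f x * (P ^ k).mulVec f x ≤ |f x * (P ^ k).mulVec f x| := le_abs_self _
            _ = |f x| * |(P ^ k).mulVec f x| := abs_mul _ _
            _ ≤ B * ((1 / 2) ^ k * B) :=
              mul_le_mul (hB x) ((hiter k).1 x) (abs_nonneg _) hB0
      _ = (1 / 2) ^ k * B * B := by
          rw [← Finset.sum_mul, hμ1]
          ring
  by_contra hlt
  rw [not_le] at hlt
  set α := Real.log 2 - τ * (1 - ρ) with hα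
  have hαpos : 0 < α := by rw [hα]; linarith
  have hs0pos : 0 < s0 := hs0
  -- unbounded growth
  obtain ⟨k, hk⟩ := exists_nat_gt (B * B / (s0 * α))
  have h1 := hkey k
  have hpow2 : ((1 / 2 : ℝ)) ^ k = Real.exp (-((k : ℝ) * Real.log 2)) := by
    rw [← Real.rpow_natCast, Real.rpow_def_of_pos (by norm_num : (0 : ℝ) < 1 / 2)]
    congr 1
    rw [one_div, Real.log_inv]
    ring
  rw [hpow2] at h1
  have h2 : s0 * Real.exp ((k : ℝ) * α) ≤ B * B := by
    have e : Real.exp (-((k : ℝ) * τ) * (1 - ρ)) =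
        Real.exp ((k : ℝ) * α) * Real.exp (-((k : ℝ) * Real.log 2)) := by
      rw [← Real.exp_add, hα]
      congr 1
      ring
    rw [e] at h1
    have hpos := Real.exp_pos (-((k : ℝ) * Real.log 2))
    have : s0 * Real.exp ((k : ℝ) * α) * Real.exp (-((k : ℝ) * Real.log 2)) ≤
        B * B * Real.exp (-((k : ℝ) * Real.log 2)) := by
      calc _ = s0 * (Real.exp ((k : ℝ) * α) * Real.exp (-((k : ℝ) * Real.log 2))) := by ring
        _ ≤ Real.exp (-((k : ℝ) * Real.log 2)) * B * B := h1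
        _ = _ := by ring
    exact le_of_mul_le_mul_right this hpos
  have h3 : (k : ℝ) * α < Real.exp ((k : ℝ) * α) := by
    have := Real.add_one_le_exp ((k : ℝ) * α)
    linarith
  have h4 : B * B < (k : ℝ) * (s0 * α) := by
    rwa [div_lt_iff₀ (mul_pos hs0pos hαpos)] at hk
  nlinarith [mul_lt_mul_of_pos_left h3 hs0pos]

end expo

end Vale.Agent.Lib.P150
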