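import Vale.Agent.Lib.P150.Defs
import Vale.Agent.Lib.P150.Semigroup

/-!
Basic facts on the Gibbs measure and the heat-bath kernels; the deterministic bounds
`gap ≤ 1 / (n Q)` and `tmix ≥ log 2 * n * Q`, where `Q` is the mean squared overlap.
-/

open scoped BigOperators ENNReal NNReal

namespace Vale.Agent.Lib.P150

variable {n : ℕ}

lemma sgn_mul_self (b : Bool) : sgn b * sgn b = 1 := by cases b <;> simp [sgn]

lemma abs_sgn (b : Bool) : |sgn b| = 1 := by cases b <;> simp [sgn]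

lemma sgn_not (b : Bool) : sgn (!b) = - sgn b := by cases b <;> simp [sgn]

lemma partition_pos (β : ℝ) (g : Pair n → ℝ) : 0 < ∑ y, Real.exp (β * ham g y) :=
  Finset.sum_pos (fun _ _ => Real.exp_pos _) Finset.univ_nonempty

lemma gibbs_pos (β : ℝ) (g : Pair n → ℝ) (x : Spin n) : 0 < gibbs β g x :=
  div_pos (Real.exp_pos _) (partition_pos β g)

lemma gibbs_sum (β : ℝ) (g : Pair n → ℝ) : ∑ x, gibbs β g x = 1 := by
  simp only [gibbs, ← Finset.sum_div]
  exact div_self (partition_pos β g).ne'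

lemma flip_flip (i : Fin n) (x : Spin n) : flip i (flip i x) = x := by
  funext j
  by_cases h : j = i
  · subst h; simp [flip]
  · simp [flip, h]

/-- `flip` as a permutation of configurations. -/
def flipPerm (i : Fin n) : Equiv.Perm (Spin n) :=
  Function.Involutive.toPerm (flip i) (flip_flip i)

lemma sum_flip {M : Type*} [AddCommMonoid M] (i : Fin n) (F : Spin n → M) :
    ∑ x, F (flip i x) = ∑ x, F x :=
  Equiv.sum_comp (flipPerm i) F

lemma flip_apply_self (i : Fin n) (x : Spin n) : flip i x i = !x i := by simp [flip]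

lemma flip_apply_ne {i j : Fin n} (h : j ≠ i) (x : Spin n) : flip i x j = x j := by
  simp [flip, h]

/-- The configuration with all spins reversed. -/
def negS (x : Spin n) : Spin n := fun i => !x i

lemma negS_negS (x : Spin n) : negS (negS x) = x := by
  funext i; simp [negS]

lemma ham_negS (g : Pair n → ℝ) (x : Spin n) : ham g (negS x) = ham g x := by
  simp only [ham, negS, sgn_not]
  congr 1
  refine Finset.sum_congr rfl fun p _ => ?_
  ring

lemma gibbs_negS (β : ℝ) (g : Pair n → ℝ) (x : Spin n) : gibbs β g (negS x) = gibbs β g x := by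
  simp only [gibbs, ham_negS]

lemma sum_negS {M : Type*} [AddCommMonoid M] (F : Spin n → M) :
    ∑ x, F (negS x) = ∑ x, F x :=
  Equiv.sum_comp (Function.Involutive.toPerm negS negS_negS) F

/-! ### Linearity of `avg` -/

lemma avg_add (β : ℝ) (g : Pair n → ℝ) (f f' : Spin n → ℝ) :
    avg β g (fun x => f x + f' x) = avg β g f + avg β g f' := by
  simp [avg, mul_add, Finset.sum_add_distrib]

lemma avg_const (β : ℝ) (g : Pair n → ℝ) (c : ℝ) : avg β g (fun _ => c) = c := by
  simp [avg, ← Finset.sum_mul, gibbs_sum]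

lemma avg_mul_left (β : ℝ) (g : Pair n → ℝ) (c : ℝ) (f : Spin n → ℝ) :
    avg β g (fun x => c * f x) = c * avg β g f := by
  simp only [avg, Finset.mul_sum]
  refine Finset.sum_congr rfl fun x _ => ?_
  ring

lemma avg_sum {ι : Type*} (s : Finset ι) (β : ℝ) (g : Pair n → ℝ) (f : ι → Spin n → ℝ) :
    avg β g (fun x => ∑ i ∈ s, f i x) = ∑ i ∈ s, avg β g (f i) := by
  simp only [avg, Finset.mul_sum]
  rw [Finset.sum_comm]

lemma avg_mono (β : ℝ) (g : Pair n → ℝ) {f f' : Spin n → ℝ} (h : ∀ x, f x ≤ f' x) :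
    avg β g f ≤ avg β g f' :=
  Finset.sum_le_sum fun x _ => mul_le_mul_of_nonneg_left (h x) (gibbs_pos β g x).le

lemma abs_avg_le (β : ℝ) (g : Pair n → ℝ) {f : Spin n → ℝ} {B : ℝ} (h : ∀ x, |f x| ≤ B) :
    |avg β g f| ≤ B := by
  rw [abs_le]
  constructor
  · have := avg_mono β g (f := fun _ => -B) (f' := f) (fun x => (abs_le.mp (h x)).1)
    rwa [avg_const] at this
  · have := avg_mono β g (f := f) (f' := fun _ => B) (fun x => (abs_le.mp (h x)).2)
    rwa [avg_const] at this

lemma avg_spin (β : ℝ) (g : Pair n → ℝ) (i : Fin n) : avg β g (fun x => sgn (x i)) = 0 := by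
  have h : avg β g (fun x => sgn (x i)) = - avg β g (fun x => sgn (x i)) := by
    conv_lhs => rw [avg, ← sum_negS]
    simp only [gibbs_negS, avg, ← Finset.sum_neg_distrib]
    refine Finset.sum_congr rfl fun x _ => ?_
    simp only [negS, sgn_not]
    ring
  linarith

/-- The covariance matrix of the spins. -/
noncomputable def corr (β : ℝ) (g : Pair n → ℝ) (i j : Fin n) : ℝ :=
  avg β g (fun x => sgn (x i) * sgn (x j))

/-- The mean squared overlap `⟨q₁₂²⟩ = n⁻² ∑_{i,j} ⟨x_i x_j⟩²`. -/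
noncomputable def ovl (β : ℝ) (g : Pair n → ℝ) : ℝ :=
  ((n : ℝ) ^ 2)⁻¹ * ∑ i, ∑ j, corr β g i j ^ 2

lemma corr_self (β : ℝ) (g : Pair n → ℝ) (i : Fin n) : corr β g i i = 1 := by
  simp [corr, sgn_mul_self, avg_const]

lemma abs_corr_le (β : ℝ) (g : Pair n → ℝ) (i j : Fin n) : |corr β g i j| ≤ 1 := by
  refine abs_avg_le β g fun x => ?_
  rw [abs_mul, abs_sgn, abs_sgn, one_mul]

lemma corr_sq_le (β : ℝ) (g : Pair n → ℝ) (i j : Fin n) : corr β g i j ^ 2 ≤ 1 := by
  have := abs_corr_le β g i j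
  rw [sq_le_one_iff_abs_le_one]
  exact this

lemma ovl_le_one (β : ℝ) (g : Pair n → ℝ) : ovl β g ≤ 1 := by
  rcases Nat.eq_zero_or_pos n with h | h
  · subst h; simp [ovl]
  · have hn : (0 : ℝ) < n := by exact_mod_cast h
    have : ∑ i, ∑ j, corr β g i j ^ 2 ≤ (n : ℝ) ^ 2 := by
      calc ∑ i, ∑ j, corr β g i j ^ 2 ≤ ∑ _i : Fin n, ∑ _j : Fin n, (1 : ℝ) :=
            Finset.sum_le_sum fun i _ => Finset.sum_le_sum fun j _ => corr_sq_le β g i j
        _ = (n : ℝ) ^ 2 := by simp [sq]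
    rw [ovl, inv_mul_le_iff₀ (by positivity)]
    linarith

lemma inv_n_le_ovl (hn : 0 < n) (β : ℝ) (g : Pair n → ℝ) : (n : ℝ)⁻¹ ≤ ovl β g := by
  have hn' : (0 : ℝ) < n := by exact_mod_cast hn
  have : (n : ℝ) ≤ ∑ i, ∑ j, corr β g i j ^ 2 := by
    calc (n : ℝ) = ∑ i : Fin n, (1 : ℝ) := by simp
      _ ≤ _ := by
        refine Finset.sum_le_sum fun i _ => ?_
        calc (1 : ℝ) = corr β g i i ^ 2 := by rw [corr_self]; norm_num
          _ ≤ _ := Finset.single_le_sum (f := fun j => corr β g i j ^ 2)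
              (fun _ _ => sq_nonneg _) (Finset.mem_univ i)
  rw [ovl]
  rw [le_inv_mul_iff₀ (by positivity)]
  calc (n : ℝ) ^ 2 * (n : ℝ)⁻¹ = n := by field_simp
    _ ≤ _ := this

lemma ovl_pos (hn : 0 < n) (β : ℝ) (g : Pair n → ℝ) : 0 < ovl β g :=
  lt_of_lt_of_le (inv_pos.mpr (by exact_mod_cast hn)) (inv_n_le_ovl hn β g)

/-! ### Heat bath kernels -/

/-- Action of the heat-bath kernel on functions. -/
noncomputable def qf (β : ℝ) (g : Pair n → ℝ) (i : Fin n) (f : Spin n → ℝ) (x : Spin n) : ℝ :=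
  (gibbs β g x * f x + gibbs β g (flip i x) * f (flip i x)) /
    (gibbs β g x + gibbs β g (flip i x))

lemma flip_ne (i : Fin n) (x : Spin n) : flip i x ≠ x := by
  intro h
  have := congrFun h i
  rw [flip_apply_self] at this
  cases hb : x i <;> simp [hb] at this

lemma heatBath_mulVec (β : ℝ) (g : Pair n → ℝ) (i : Fin n) (f : Spin n → ℝ) :
    (heatBath β g i).mulVec f = qf β g i f := by
  funext x
  simp only [Matrix.mulVec, dotProduct, heatBath, qf, div_mul_eq_mul_div, add_mul, ite_mul, zero_mul]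
  rw [← Finset.sum_div, Finset.sum_add_distrib]
  simp

lemma qf_flip (β : ℝ) (g : Pair n → ℝ) (i : Fin n) (f : Spin n → ℝ) (x : Spin n) :
    qf β g i f (flip i x) = qf β g i f x := by
  simp only [qf, flip_flip]
  rw [add_comm (gibbs β g (flip i x)) (gibbs β g x),
    add_comm (gibbs β g (flip i x) * f (flip i x)) _]

lemma qf_one (β : ℝ) (g : Pair n → ℝ) (i : Fin n) : qf β g i (fun _ => 1) = fun _ => 1 := by
  funext x
  have := (add_pos (gibbs_pos β g x) (gibbs_pos β g (flip i x))).ne'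
  simp only [qf, mul_one]
  exact div_self this

/-- Symmetrisation over the flip at site `i`. -/
lemma sum_eq_half_sum_flip (i : Fin n) (F : Spin n → ℝ) :
    ∑ x, F x = (1 / 2) * ∑ x, (F x + F (flip i x)) := by
  rw [Finset.sum_add_distrib, sum_flip]
  ring

/-- The basic symmetric formula for `⟨Q_i u, v⟩`. -/
lemma ip_qf (β : ℝ) (g : Pair n → ℝ) (i : Fin n) (u v : Spin n → ℝ) :
    ip (gibbs β g) (qf β g i u) v =
      (1 / 2) * ∑ x, (gibbs β g x + gibbs β g (flip i x)) * (qf β g i u x * qf β g i v x) := by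
  rw [ip, sum_eq_half_sum_flip i]
  congr 1
  refine Finset.sum_congr rfl fun x _ => ?_
  have hd := (add_pos (gibbs_pos β g x) (gibbs_pos β g (flip i x))).ne'
  rw [qf_flip]
  have e : qf β g i v x * (gibbs β g x + gibbs β g (flip i x)) =
      gibbs β g x * v x + gibbs β g (flip i x) * v (flip i x) := by
    rw [qf]
    field_simp
  calc _ = qf β g i u x * (gibbs β g x * v x + gibbs β g (flip i x) * v (flip i x)) := by ring
    _ = _ := by rw [← e]; ring

lemma ip_qf_symm (β : ℝ) (g : Pair n → ℝ) (i : Fin n) (u v : Spin n → ℝ) :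
    ip (gibbs β g) (qf β g i u) v = ip (gibbs β g) u (qf β g i v) := by
  rw [ip_qf, ip_comm, ip_qf]
  congr 1
  refine Finset.sum_congr rfl fun x _ => ?_
  ring

lemma ip_qf_self_nonneg (β : ℝ) (g : Pair n → ℝ) (i : Fin n) (u : Spin n → ℝ) :
    0 ≤ ip (gibbs β g) u (qf β g i u) := by
  rw [← ip_qf_symm, ip_qf]
  refine mul_nonneg (by norm_num) (Finset.sum_nonneg fun x _ => ?_)
  exact mul_nonneg (add_pos (gibbs_pos β g x) (gibbs_pos β g (flip i x))).le (mul_self_nonneg _)

/-- Exact formula for the local Dirichlet form. -/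
lemma ip_sub_qf (β : ℝ) (g : Pair n → ℝ) (i : Fin n) (u : Spin n → ℝ) :
    ip (gibbs β g) u u - ip (gibbs β g) u (qf β g i u) =
      (1 / 2) * ∑ x, gibbs β g x * gibbs β g (flip i x) * (u x - u (flip i x)) ^ 2 /
        (gibbs β g x + gibbs β g (flip i x)) := by
  rw [← ip_qf_symm, ip_qf]
  have : ip (gibbs β g) u u = (1 / 2) * ∑ x, (gibbs β g x * (u x * u x) +
      gibbs β g (flip i x) * (u (flip i x) * u (flip i x))) := by
    rw [ip, sum_eq_half_sum_flip i]
  rw [this, ← mul_sub, ← Finset.sum_sub_distrib]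
  congr 1
  refine Finset.sum_congr rfl fun x _ => ?_
  have hd := (add_pos (gibbs_pos β g x) (gibbs_pos β g (flip i x))).ne'
  rw [qf]
  field_simp
  ring

/-! ### The averaged kernel `A` -/

/-- The one-step kernel of the discrete chain: average of the `Q_i`. -/
noncomputable def oneStep (β : ℝ) (g : Pair n → ℝ) : Matrix (Spin n) (Spin n) ℝ :=
  (n : ℝ)⁻¹ • ∑ i, heatBath β g i

lemma sum_mulVec_eq (β : ℝ) (g : Pair n → ℝ) (f : Spin n → ℝ) :
    (∑ i, heatBath β g i).mulVec f = ∑ i, qf β g i f := by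
  funext x
  simp only [Matrix.sum_mulVec, Finset.sum_apply, heatBath_mulVec]

lemma oneStep_mulVec (β : ℝ) (g : Pair n → ℝ) (f : Spin n → ℝ) :
    (oneStep β g).mulVec f = (n : ℝ)⁻¹ • ∑ i, qf β g i f := by
  rw [oneStep, Matrix.smul_mulVec, sum_mulVec_eq]

lemma ip_sum_right {ι : Type*} (s : Finset ι) (μ u : Spin n → ℝ) (v : ι → Spin n → ℝ) :
    ip μ u (∑ i ∈ s, v i) = ∑ i ∈ s, ip μ u (v i) := by
  classical
  induction s using Finset.induction_on with
  | empty => simp [ip]
  | insert a s ha ih => rw [Finset.sum_insert ha, Finset.sum_insert ha, ip_add_right, ih]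

lemma ip_sum_left {ι : Type*} (s : Finset ι) (μ v : Spin n → ℝ) (u : ι → Spin n → ℝ) :
    ip μ (∑ i ∈ s, u i) v = ∑ i ∈ s, ip μ (u i) v := by
  rw [ip_comm, ip_sum_right]
  exact Finset.sum_congr rfl fun i _ => ip_comm _ _ _

lemma oneStep_selfadj (β : ℝ) (g : Pair n → ℝ) (u v : Spin n → ℝ) :
    ip (gibbs β g) ((oneStep β g).mulVec u) v = ip (gibbs β g) u ((oneStep β g).mulVec v) := by
  rw [oneStep_mulVec, oneStep_mulVec, ip_smul_left, ip_smul_right, ip_sum_left, ip_sum_right]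
  congr 1
  exact Finset.sum_congr rfl fun i _ => ip_qf_symm β g i u v

lemma oneStep_psd (β : ℝ) (g : Pair n → ℝ) (u : Spin n → ℝ) :
    0 ≤ ip (gibbs β g) u ((oneStep β g).mulVec u) := by
  rw [oneStep_mulVec, ip_smul_right, ip_sum_right]
  exact mul_nonneg (inv_nonneg.mpr (Nat.cast_nonneg _))
    (Finset.sum_nonneg fun i _ => ip_qf_self_nonneg β g i u)

lemma oneStep_one (hn : 0 < n) (β : ℝ) (g : Pair n → ℝ) :
    (oneStep β g).mulVec (1 : Spin n → ℝ) = 1 := by
  have hn' : (n : ℝ) ≠ 0 := by exact_mod_cast hn.ne'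
  have h1 : (1 : Spin n → ℝ) = fun _ => 1 := rfl
  rw [oneStep_mulVec, h1]
  simp only [qf_one]
  funext x
  simp [hn']

lemma generator_eq (hn : 0 < n) (β : ℝ) (g : Pair n → ℝ) :
    generator β g = (n : ℝ) • (oneStep β g - 1) := by
  have hn' : (n : ℝ) ≠ 0 := by exact_mod_cast hn.ne'
  rw [generator, oneStep, smul_sub, smul_smul, mul_inv_cancel₀ hn', one_smul,
    Finset.sum_sub_distrib]
  congr 1
  rw [Finset.sum_const, Finset.card_univ, Fintype.card_fin, Nat.cast_smul_eq_nsmul]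

lemma kernel_eq (hn : 0 < n) (β : ℝ) (g : Pair n → ℝ) (t : ℝ) :
    kernel β g t = NormedSpace.exp ((t * n) • (oneStep β g - 1)) := by
  rw [kernel, generator_eq hn, smul_smul]

/-- The Dirichlet form in terms of the averaged kernel. -/
lemma dirichlet_eq (hn : 0 < n) (β : ℝ) (g : Pair n → ℝ) (f : Spin n → ℝ) :
    dirichlet β g f = (n : ℝ) * (ip (gibbs β g) f f - ip (gibbs β g) f ((oneStep β g).mulVec f)) := by
  have : avg β g (fun x => f x * (generator β g).mulVec f x) =
      ip (gibbs β g) f ((generator β g).mulVec f) := rfl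
  rw [dirichlet, this, generator_eq hn, Matrix.smul_mulVec, ip_smul_right, Matrix.sub_mulVec,
    Matrix.one_mulVec]
  have e : ip (gibbs β g) f ((oneStep β g).mulVec f - f) =
      ip (gibbs β g) f ((oneStep β g).mulVec f) - ip (gibbs β g) f f := by
    have : (oneStep β g).mulVec f - f = (oneStep β g).mulVec f + (-1 : ℝ) • f := by
      rw [neg_one_smul, sub_eq_add_neg]
    rw [this, ip_add_right, ip_smul_right]
    ring
  rw [e]
  ring

/-- The Dirichlet form as a sum of local contributions. -/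
lemma dirichlet_eq_sum (hn : 0 < n) (β : ℝ) (g : Pair n → ℝ) (f : Spin n → ℝ) :
    dirichlet β g f = ∑ i, (ip (gibbs β g) f f - ip (gibbs β g) f (qf β g i f)) := by
  have hn' : (n : ℝ) ≠ 0 := by exact_mod_cast hn.ne'
  rw [dirichlet_eq hn, oneStep_mulVec, ip_smul_right, ip_sum_right, Finset.sum_sub_distrib]
  simp only [Finset.sum_const, Finset.card_univ, Fintype.card_fin, nsmul_eq_mul]
  rw [mul_sub, ← mul_assoc, mul_inv_cancel₀ hn', one_mul]

lemma dirichlet_nonneg (hn : 0 < n) (β : ℝ) (g : Pair n → ℝ) (f : Spin n → ℝ) :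
    0 ≤ dirichlet β g f := by
  rw [dirichlet_eq_sum hn]
  refine Finset.sum_nonneg fun i _ => ?_
  rw [ip_sub_qf]
  refine mul_nonneg (by norm_num) (Finset.sum_nonneg fun x _ => ?_)
  have := gibbs_pos β g x
  have := gibbs_pos β g (flip i x)
  positivity

/-! ### The linear test functions -/

/-- The overlap with a fixed configuration `y`. -/
noncomputable def ovf (y x : Spin n) : ℝ := ∑ i, sgn (y i) * sgn (x i)

lemma ovf_sub_flip (y x : Spin n) (i : Fin n) :
    (ovf y x - ovf y (flip i x)) ^ 2 = 4 := by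
  have e : ovf y x - ovf y (flip i x) = 2 * (sgn (y i) * sgn (x i)) := by
    rw [ovf, ovf, ← Finset.sum_sub_distrib]
    rw [Finset.sum_eq_single i]
    · rw [flip_apply_self, sgn_not]; ring
    · intro j _ hj
      rw [flip_apply_ne hj, sub_self]
    · simp
  rw [e, mul_pow, mul_pow, sq (sgn (y i)), sq (sgn (x i)), sgn_mul_self, sgn_mul_self]
  norm_num

lemma abs_ovf_le (y x : Spin n) : |ovf y x| ≤ n := by
  calc |ovf y x| ≤ ∑ i, |sgn (y i) * sgn (x i)| := Finset.abs_sum_le_sum_abs _ _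
    _ = ∑ _i : Fin n, (1 : ℝ) := by simp [abs_mul, abs_sgn]
    _ = n := by simp

lemma local_dirichlet_ovf_le (β : ℝ) (g : Pair n → ℝ) (y : Spin n) (i : Fin n) :
    ip (gibbs β g) (ovf y) (ovf y) - ip (gibbs β g) (ovf y) (qf β g i (ovf y)) ≤ 1 := by
  rw [ip_sub_qf]
  have hterm : ∀ x, gibbs β g x * gibbs β g (flip i x) * (ovf y x - ovf y (flip i x)) ^ 2 /
      (gibbs β g x + gibbs β g (flip i x)) ≤ gibbs β g x + gibbs β g (flip i x) := by
    intro x
    rw [ovf_sub_flip]
    have ha := gibbs_pos β g x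
    have hb := gibbs_pos β g (flip i x)
    rw [div_le_iff₀ (add_pos ha hb)]
    nlinarith [sq_nonneg (gibbs β g x - gibbs β g (flip i x))]
  have hsum : ∑ x, (gibbs β g x + gibbs β g (flip i x)) = 2 := by
    rw [Finset.sum_add_distrib, sum_flip, gibbs_sum]
    norm_num
  calc (1 / 2) * ∑ x, gibbs β g x * gibbs β g (flip i x) * (ovf y x - ovf y (flip i x)) ^ 2 /
        (gibbs β g x + gibbs β g (flip i x))
      ≤ (1 / 2) * ∑ x, (gibbs β g x + gibbs β g (flip i x)) :=
        mul_le_mul_of_nonneg_left (Finset.sum_le_sum fun x _ => hterm x) (by norm_num)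
    _ = 1 := by rw [hsum]; norm_num

lemma dirichlet_ovf_le (hn : 0 < n) (β : ℝ) (g : Pair n → ℝ) (y : Spin n) :
    dirichlet β g (ovf y) ≤ n := by
  rw [dirichlet_eq_sum hn]
  calc _ ≤ ∑ _i : Fin n, (1 : ℝ) :=
        Finset.sum_le_sum fun i _ => local_dirichlet_ovf_le β g y i
    _ = n := by simp

lemma avg_ovf (β : ℝ) (g : Pair n → ℝ) (y : Spin n) : avg β g (ovf y) = 0 := by
  have : avg β g (ovf y) = ∑ i, sgn (y i) * avg β g (fun x => sgn (x i)) := by
    have e : ovf y = fun x => ∑ i, sgn (y i) * sgn (x i) := rfl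
    rw [e, avg_sum]
    exact Finset.sum_congr rfl fun i _ => avg_mul_left β g _ _
  rw [this]
  simp [avg_spin]

lemma avg_ovf_sq (β : ℝ) (g : Pair n → ℝ) (y : Spin n) :
    avg β g (fun x => ovf y x ^ 2) = ∑ i, ∑ j, sgn (y i) * sgn (y j) * corr β g i j := by
  have e : ∀ x, ovf y x ^ 2 = ∑ i, ∑ j, sgn (y i) * sgn (y j) * (sgn (x i) * sgn (x j)) := by
    intro x
    rw [ovf, sq, Finset.sum_mul_sum]
    refine Finset.sum_congr rfl fun i _ => Finset.sum_congr rfl fun j _ => ?_
    ring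
  simp only [e]
  rw [avg_sum]
  refine Finset.sum_congr rfl fun i _ => ?_
  rw [avg_sum]
  refine Finset.sum_congr rfl fun j _ => ?_
  rw [avg_mul_left, corr]

/-- The weighted average over `y` of the variance of the overlap with `y` is `n² Q`. -/
lemma avg_avg_ovf_sq (β : ℝ) (g : Pair n → ℝ) :
    avg β g (fun y => avg β g (fun x => ovf y x ^ 2)) = ∑ i, ∑ j, corr β g i j ^ 2 := by
  simp only [avg_ovf_sq]
  rw [avg_sum]
  refine Finset.sum_congr rfl fun i _ => ?_
  rw [avg_sum]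
  refine Finset.sum_congr rfl fun j _ => ?_
  have : avg β g (fun y => sgn (y i) * sgn (y j) * corr β g i j) =
      corr β g i j * avg β g (fun y => sgn (y i) * sgn (y j)) := by
    rw [← avg_mul_left]
    congr 1
    funext y
    ring
  rw [this, corr, sq]

lemma exists_ovf_large (hn : 0 < n) (β : ℝ) (g : Pair n → ℝ) :
    ∃ y : Spin n, (n : ℝ) ^ 2 * ovl β g ≤ avg β g (fun x => ovf y x ^ 2) := by
  have hn' : (0 : ℝ) < n := by exact_mod_cast hn
  by_contra hcon
  simp only [not_exists, not_le] at hcon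
  have h1 : avg β g (fun y => avg β g (fun x => ovf y x ^ 2)) < (n : ℝ) ^ 2 * ovl β g := by
    have : ∑ y, gibbs β g y * avg β g (fun x => ovf y x ^ 2) <
        ∑ y, gibbs β g y * ((n : ℝ) ^ 2 * ovl β g) :=
      Finset.sum_lt_sum_of_nonempty Finset.univ_nonempty fun y _ =>
        mul_lt_mul_of_pos_left (hcon y) (gibbs_pos β g y)
    rw [← Finset.sum_mul, gibbs_sum, one_mul] at this
    exact this
  rw [avg_avg_ovf_sq, ovl] at h1
  have : (n : ℝ) ^ 2 * (((n : ℝ) ^ 2)⁻¹ * ∑ i, ∑ j, corr β g i j ^ 2) =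
      ∑ i, ∑ j, corr β g i j ^ 2 := by
    field_simp
  linarith

/-! ### The deterministic bounds on the spectral gap and the mixing time -/

lemma var_nonneg (β : ℝ) (g : Pair n → ℝ) (f : Spin n → ℝ) : 0 ≤ var β g f := by
  have h : var β g f = avg β g (fun x => (f x - avg β g f) ^ 2) := by
    have e : ∀ x, (f x - avg β g f) ^ 2 = f x ^ 2 + (-2 * avg β g f) * f x + avg β g f ^ 2 := by
      intro x; ring
    simp only [e]
    rw [avg_add, avg_add, avg_mul_left, avg_const, var]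
    ring
  rw [h]
  exact Finset.sum_nonneg fun x _ => mul_nonneg (gibbs_pos β g x).le (sq_nonneg _)

lemma gap_nonneg (hn : 0 < n) (β : ℝ) (g : Pair n → ℝ) : 0 ≤ gap β g := by
  refine Real.sInf_nonneg ?_
  rintro r ⟨f, hf, rfl⟩
  exact div_nonneg (dirichlet_nonneg hn β g f) hf.le

lemma gap_le (hn : 0 < n) (β : ℝ) (g : Pair n → ℝ) (f : Spin n → ℝ) (hf : 0 < var β g f) :
    gap β g ≤ dirichlet β g f / var β g f := by
  refine csInf_le ⟨0, ?_⟩ ⟨f, hf, rfl⟩
  rintro r ⟨f, hf, rfl⟩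
  exact div_nonneg (dirichlet_nonneg hn β g f) hf.le

/-- Deterministic bound on the gap, for every disorder. -/
theorem mul_ovl_mul_gap_le (hn : 0 < n) (β : ℝ) (g : Pair n → ℝ) :
    (n : ℝ) * ovl β g * gap β g ≤ 1 := by
  have hn' : (0 : ℝ) < n := by exact_mod_cast hn
  obtain ⟨y, hy⟩ := exists_ovf_large hn β g
  have hQ := ovl_pos hn β g
  have hv : var β g (ovf y) = avg β g (fun x => ovf y x ^ 2) := by
    rw [var, avg_ovf]
    ring
  have hvpos : 0 < var β g (ovf y) := by
    rw [hv]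
    refine lt_of_lt_of_le (by positivity) hy
  have h1 := gap_le hn β g (ovf y) hvpos
  have h2 : dirichlet β g (ovf y) / var β g (ovf y) ≤ 1 / ((n : ℝ) * ovl β g) := by
    rw [div_le_div_iff₀ hvpos (by positivity)]
    rw [hv]
    have := dirichlet_ovf_le hn β g y
    have hd := dirichlet_nonneg hn β g (ovf y)
    calc dirichlet β g (ovf y) * ((n : ℝ) * ovl β g) ≤ n * ((n : ℝ) * ovl β g) :=
          mul_le_mul_of_nonneg_right this (by positivity)
      _ = (n : ℝ) ^ 2 * ovl β g := by ring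
      _ ≤ _ := by linarith
  have h3 := h1.trans h2
  have hpos : 0 < (n : ℝ) * ovl β g := by positivity
  calc (n : ℝ) * ovl β g * gap β g ≤ (n : ℝ) * ovl β g * (1 / ((n : ℝ) * ovl β g)) :=
        mul_le_mul_of_nonneg_left h3 hpos.le
    _ = 1 := by field_simp

/-- Deterministic bound on the mixing time, for every disorder. -/
theorem ofReal_le_tmix (hn : 0 < n) (β : ℝ) (g : Pair n → ℝ) :
    ENNReal.ofReal (Real.log 2 * n * ovl β g) ≤ tmix β g := by
  have hn' : (0 : ℝ) < n := by exact_mod_cast hn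
  refine le_iInf₂ fun t ht => ?_
  rw [← ENNReal.ofReal_coe_nnreal]
  refine ENNReal.ofReal_le_ofReal ?_
  obtain ⟨y, hy⟩ := exists_ovf_large hn β g
  have hQ := ovl_pos hn β g
  set A := oneStep β g with hA
  set μ := gibbs β g with hμ
  set f := ovf y with hf
  have hmom0 : mom μ A f 0 = avg β g (fun x => f x ^ 2) := by
    simp only [mom, pow_zero, Matrix.one_mulVec, ip, avg, sq]
    rfl
  have hs0 : 0 < mom μ A f 0 := by
    rw [hmom0]
    refine lt_of_lt_of_le (by positivity) hy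
  have hmean : ip μ f 1 = 0 := by
    have := avg_ovf β g y
    simpa [ip, avg] using this
  have htv : ∀ x, ∑ z, |(NormedSpace.exp ((((t : ℝ) * n) • (A - 1)))) x z - μ z| ≤ 1 / 2 := by
    intro x
    have h := ht x
    rw [tvDist, kernel_eq hn] at h
    linarith
  have hτ : (0 : ℝ) ≤ (t : ℝ) * n := by positivity
  have key := log_two_le_of_tv (fun x => (gibbs_pos β g x).le) (gibbs_sum β g)
    (oneStep_selfadj β g) (oneStep_psd β g) (oneStep_one hn β g) f hs0 hmean
    (fun x => abs_ovf_le y x) hτ htv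
  -- rewrite the Rayleigh quotient through the Dirichlet form
  have hD : dirichlet β g f = (n : ℝ) * (mom μ A f 0 - mom μ A f 1) := by
    rw [dirichlet_eq hn]
    simp [mom, pow_one, pow_zero, Matrix.one_mulVec, hA, hμ]
  have hD' := dirichlet_ovf_le hn β g y
  have hrw : (t : ℝ) * n * (1 - mom μ A f 1 / mom μ A f 0) =
      (t : ℝ) * dirichlet β g f / mom μ A f 0 := by
    rw [hD]
    field_simp
  rw [hrw, le_div_iff₀ hs0] at key
  -- conclude
  have h1 : Real.log 2 * ((n : ℝ) ^ 2 * ovl β g) ≤ Real.log 2 * mom μ A f 0 := by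
    refine mul_le_mul_of_nonneg_left ?_ (Real.log_nonneg (by norm_num))
    rw [hmom0]
    exact hy
  have h2 : (t : ℝ) * dirichlet β g f ≤ (t : ℝ) * n :=
    mul_le_mul_of_nonneg_left hD' t.2
  have h3 : Real.log 2 * ((n : ℝ) ^ 2 * ovl β g) ≤ (t : ℝ) * n := by linarith
  have h4 : (Real.log 2 * n * ovl β g) * n ≤ (t : ℝ) * n := by
    calc _ = Real.log 2 * ((n : ℝ) ^ 2 * ovl β g) := by ring
      _ ≤ _ := h3
  exact le_of_mul_le_mul_right h4 hn'

end Vale.Agent.Lib.P150
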