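import Mathlib

/-!
Gaussian integration by parts: in one variable, and on a finite product of standard Gaussians.
-/

open MeasureTheory ProbabilityTheory Filter Topology
open scoped ENNReal NNReal

namespace Vale.Agent.Lib.P150

/-- Shape of the standard Gaussian density. -/
lemma gaussianPDFReal_std (t : ℝ) :
    gaussianPDFReal 0 1 t = (Real.sqrt (2 * Real.pi))⁻¹ * Real.exp (-(1 / 2) * t ^ 2) := by
  simp only [gaussianPDFReal, NNReal.coe_one, mul_one, sub_zero]
  congr 2
  ring

lemma tendsto_gauss_atTop :
    Tendsto (fun t : ℝ => Real.exp (-(1 / 2) * t ^ 2)) atTop (𝓝 0) := by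
  refine Real.tendsto_exp_atBot.comp ?_
  have h1 : Tendsto (fun t : ℝ => t ^ 2) atTop atTop := tendsto_pow_atTop (by norm_num)
  have h2 := h1.const_mul_atTop_of_neg (show (-(1 / 2) : ℝ) < 0 by norm_num)
  exact h2

lemma tendsto_gauss_atBot :
    Tendsto (fun t : ℝ => Real.exp (-(1 / 2) * t ^ 2)) atBot (𝓝 0) := by
  have h := tendsto_gauss_atTop.comp tendsto_neg_atBot_atTop
  refine h.congr fun t => ?_
  simp

/-- Gaussian integration by parts in one variable. -/
lemma gaussian_ibp_one {φ φ' : ℝ → ℝ} (hd : ∀ t, HasDerivAt φ (φ' t) t) {B B' : ℝ}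
    (hφ : ∀ t, |φ t| ≤ B) (hφ' : ∀ t, |φ' t| ≤ B') :
    ∫ t, t * φ t ∂(gaussianReal 0 1) = ∫ t, φ' t ∂(gaussianReal 0 1) := by
  have hv : (1 : ℝ≥0) ≠ 0 := one_ne_zero
  rw [integral_gaussianReal_eq_integral_smul hv, integral_gaussianReal_eq_integral_smul hv]
  set c : ℝ := (Real.sqrt (2 * Real.pi))⁻¹ with hc
  have hc0 : 0 ≤ c := by positivity
  set e : ℝ → ℝ := fun t => Real.exp (-(1 / 2) * t ^ 2) with he
  have hpdf : ∀ t, gaussianPDFReal 0 1 t = c * e t := fun t => gaussianPDFReal_std t
  simp only [hpdf, smul_eq_mul]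
  -- measurability
  have hφc : Continuous φ := continuous_iff_continuousAt.mpr fun t => (hd t).continuousAt
  have hφ'm : Measurable φ' := by
    have : φ' = deriv φ := funext fun t => (hd t).deriv.symm
    rw [this]
    exact measurable_deriv φ
  have hec : Continuous e := by rw [he]; fun_prop
  -- derivative of `c e φ`
  have hde : ∀ t, HasDerivAt e (-t * e t) t := by
    intro t
    have h1 : HasDerivAt (fun t : ℝ => -(1 / 2) * t ^ 2) (-t) t := by
      have := (hasDerivAt_pow 2 t).const_mul (-(1 / 2) : ℝ)
      exact this.congr_deriv (by norm_num; ring)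
    have := h1.exp
    simpa [he, mul_comm] using this
  have hdu : ∀ t, HasDerivAt (fun t => c * (e t * φ t))
      (c * (-t * e t * φ t + e t * φ' t)) t := by
    intro t
    exact ((hde t).mul (hd t)).const_mul c
  -- integrability
  have hi1 : Integrable (fun t => c * (t * e t * φ t)) := by
    refine Integrable.const_mul ?_ c
    have hb : Integrable (fun t : ℝ => t * Real.exp (-(1 / 2 : ℝ) * t ^ 2)) :=
      integrable_mul_exp_neg_mul_sq (by norm_num)
    refine Integrable.mono' (hb.norm.const_mul B) ?_ ?_
    · exact ((continuous_id.mul hec).mul hφc).aestronglyMeasurable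
    · refine Eventually.of_forall fun t => ?_
      rw [Real.norm_eq_abs, abs_mul, Real.norm_eq_abs, mul_comm B]
      exact mul_le_mul_of_nonneg_left (hφ t) (abs_nonneg _)
  have hi2 : Integrable (fun t => c * (e t * φ' t)) := by
    refine Integrable.const_mul ?_ c
    have hb : Integrable (fun t : ℝ => Real.exp (-(1 / 2 : ℝ) * t ^ 2)) :=
      integrable_exp_neg_mul_sq (by norm_num)
    refine Integrable.mono' (hb.const_mul B') ?_ ?_
    · exact (hec.aestronglyMeasurable).mul hφ'm.aestronglyMeasurable
    · refine Eventually.of_forall fun t => ?_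
      rw [Real.norm_eq_abs, abs_mul, abs_of_nonneg (Real.exp_pos _).le, mul_comm B']
      exact mul_le_mul_of_nonneg_left (hφ' t) (Real.exp_pos _).le
  have hi3 : Integrable (fun t => c * (-t * e t * φ t + e t * φ' t)) := by
    have : (fun t => c * (-t * e t * φ t + e t * φ' t)) =
        fun t => -(c * (t * e t * φ t)) + c * (e t * φ' t) := by
      funext t; ring
    rw [this]
    exact hi1.neg.add hi2
  -- limits
  have hlim : ∀ {l : Filter ℝ}, Tendsto e l (𝓝 0) →
      Tendsto (fun t => c * (e t * φ t)) l (𝓝 0) := by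
    intro l hl
    have h1 : Tendsto (fun t => c * (e t * B)) l (𝓝 0) := by
      simpa using (hl.mul_const B).const_mul c
    refine squeeze_zero_norm (fun t => ?_) h1
    rw [Real.norm_eq_abs, abs_mul, abs_of_nonneg hc0, abs_mul, abs_of_nonneg (Real.exp_pos _).le]
    exact mul_le_mul_of_nonneg_left
      (mul_le_mul_of_nonneg_left (hφ t) (Real.exp_pos _).le) hc0
  have hint := integral_of_hasDerivAt_of_tendsto hdu hi3 (hlim tendsto_gauss_atBot)
    (hlim tendsto_gauss_atTop)
  have hsplit : ∫ t, c * (-t * e t * φ t + e t * φ' t) =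
      (- ∫ t, c * (t * e t * φ t)) + ∫ t, c * (e t * φ' t) := by
    have hn : Integrable (fun t => -(c * (t * e t * φ t))) := hi1.neg
    have h3 : ∫ t, (-(c * (t * e t * φ t)) + c * (e t * φ' t)) =
        (- ∫ t, c * (t * e t * φ t)) + ∫ t, c * (e t * φ' t) := by
      rw [integral_add hn hi2, integral_neg]
    rw [← h3]
    congr 1
    funext t
    ring
  rw [hsplit, sub_zero] at hint
  have e1 : ∫ t, c * e t * (t * φ t) = ∫ t, c * (t * e t * φ t) := by
    congr 1; funext t; ring
  have e2 : ∫ t, c * e t * φ' t = ∫ t, c * (e t * φ' t) := by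
    congr 1; funext t; ring
  rw [e1, e2]
  linarith

section product

variable {ι : Type*} [Fintype ι] [DecidableEq ι]

/-- The pushforward of `π ⊗ ν` under `(g, t) ↦ update g p t` is `π`. -/
lemma measurePreserving_update (ν : Measure ℝ) [IsProbabilityMeasure ν] (p : ι) :
    MeasurePreserving (fun z : (ι → ℝ) × ℝ => Function.update z.1 p z.2)
      ((Measure.pi fun _ : ι => ν).prod ν) (Measure.pi fun _ : ι => ν) := by
  have hm : Measurable (fun z : (ι → ℝ) × ℝ => Function.update z.1 p z.2) := by
    refine measurable_pi_iff.mpr fun q => ?_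
    by_cases hq : q = p
    · subst hq
      simpa using measurable_snd
    · have : (fun x : (ι → ℝ) × ℝ => Function.update x.1 p x.2 q) = fun x => x.1 q := by
        funext x
        simp [Function.update_of_ne hq]
      rw [this]
      exact (measurable_pi_apply q).comp measurable_fst
  refine ⟨hm, ?_⟩
  symm
  refine Measure.pi_eq fun s hs => ?_
  rw [Measure.map_apply hm (MeasurableSet.univ_pi hs)]
  have hpre : (fun z : (ι → ℝ) × ℝ => Function.update z.1 p z.2) ⁻¹' (Set.pi Set.univ s) =
      (Set.pi Set.univ (fun q => if q = p then Set.univ else s q)) ×ˢ s p := by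
    ext ⟨g, t⟩
    simp only [Set.mem_preimage, Set.mem_pi, Set.mem_univ, true_implies, Set.mem_prod]
    constructor
    · intro h
      constructor
      · intro q
        by_cases hq : q = p
        · simp [hq]
        · have := h q
          simpa [Function.update_of_ne hq, hq] using this
      · simpa using h p
    · rintro ⟨h1, h2⟩ q
      by_cases hq : q = p
      · subst hq
        simpa using h2
      · have := h1 q
        simpa [Function.update_of_ne hq, hq] using this
  rw [hpre, Measure.prod_prod, Measure.pi_pi]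
  have : ∏ q, ν (if q = p then Set.univ else s q) = ∏ q ∈ Finset.univ.erase p, ν (s q) := by
    rw [← Finset.mul_prod_erase Finset.univ _ (Finset.mem_univ p)]
    simp only [if_true, measure_univ, one_mul]
    refine Finset.prod_congr rfl fun q hq => ?_
    rw [if_neg (Finset.ne_of_mem_erase hq)]
  rw [this, mul_comm, Finset.mul_prod_erase Finset.univ (fun q => ν (s q)) (Finset.mem_univ p)]

/-- Gaussian integration by parts on a finite product of standard Gaussians. -/
theorem gaussian_ibp (p : ι) {Φ D : (ι → ℝ) → ℝ} (hΦm : Measurable Φ) (hDm : Measurable D)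
    {B B' : ℝ} (hΦ : ∀ g, |Φ g| ≤ B) (hD : ∀ g, |D g| ≤ B')
    (hd : ∀ g t, HasDerivAt (fun s => Φ (Function.update g p s)) (D (Function.update g p t)) t) :
    ∫ g, g p * Φ g ∂(Measure.pi fun _ : ι => gaussianReal 0 1) =
      ∫ g, D g ∂(Measure.pi fun _ : ι => gaussianReal 0 1) := by
  set γ : Measure ℝ := gaussianReal 0 1 with hγ
  set π : Measure (ι → ℝ) := Measure.pi fun _ : ι => γ with hπ
  have hT : MeasurePreserving (fun z : (ι → ℝ) × ℝ => Function.update z.1 p z.2) (π.prod γ) π :=
    measurePreserving_update γ p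
  have hFub : ∀ F : (ι → ℝ) → ℝ, Integrable F π →
      ∫ g, F g ∂π = ∫ g, ∫ t, F (Function.update g p t) ∂γ ∂π := by
    intro F hF
    calc ∫ g, F g ∂π
        = ∫ g, F g ∂(Measure.map (fun z : (ι → ℝ) × ℝ => Function.update z.1 p z.2) (π.prod γ)) := by
          rw [hT.map_eq]
      _ = ∫ z, F (Function.update z.1 p z.2) ∂(π.prod γ) :=
          integral_map hT.measurable.aemeasurable
            (by rw [hT.map_eq]; exact hF.aestronglyMeasurable)
      _ = ∫ g, ∫ t, F (Function.update g p t) ∂γ ∂π :=
          integral_prod _ (hT.integrable_comp_of_integrable hF)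
  have hgp : Integrable (fun g : ι → ℝ => g p) π := by
    have : Integrable id γ :=
      memLp_one_iff_integrable.mp (memLp_id_gaussianReal' (μ := 0) (v := 1) 1 (by simp))
    exact integrable_eval (μ := fun _ : ι => γ) (i := p) this
  have hi1 : Integrable (fun g : ι → ℝ => g p * Φ g) π := by
    refine Integrable.mono' (hgp.norm.mul_const B) ?_ ?_
    · exact (hgp.aestronglyMeasurable).mul hΦm.aestronglyMeasurable
    · refine Eventually.of_forall fun g => ?_
      rw [Real.norm_eq_abs, abs_mul, Real.norm_eq_abs]
      exact mul_le_mul_of_nonneg_left (hΦ g) (abs_nonneg _)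
  have hi2 : Integrable D π := by
    refine Integrable.mono' (integrable_const B') hDm.aestronglyMeasurable ?_
    exact Eventually.of_forall fun g => hD g
  -- both sides as iterated integrals
  have hL : ∫ g, g p * Φ g ∂π =
      ∫ g, ∫ t, t * Φ (Function.update g p t) ∂γ ∂π := by
    rw [hFub _ hi1]
    simp [Function.update_self]
  have hR : ∫ g, D g ∂π = ∫ g, ∫ t, D (Function.update g p t) ∂γ ∂π := hFub _ hi2
  rw [hL, hR]
  congr 1
  funext g
  exact gaussian_ibp_one (fun t => hd g t) (fun t => hΦ _) (fun t => hD _)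

end product

end Vale.Agent.Lib.P150
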