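import Vale.Agent.Lib.P150.Deriv
import Vale.Agent.Lib.P150.IBP

/-!
The negative-moment bound for the mean squared overlap, by Gaussian integration by parts with
weight `Q^(-r)` and the first-moment bound on the maximal energy.
-/

open MeasureTheory ProbabilityTheory Filter
open scoped BigOperators

namespace Vale.Agent.Lib.P150

variable {n : ℕ}

/-! ### Continuity -/

lemma continuous_ham (x : Spin n) : Continuous (fun g : Pair n → ℝ => ham g x) := by
  unfold ham
  fun_prop

lemma continuous_gibbs (β : ℝ) (x : Spin n) : Continuous (fun g : Pair n → ℝ => gibbs β g x) := by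
  unfold gibbs
  refine Continuous.div ?_ ?_ (fun g => (partition_pos β g).ne')
  · exact Real.continuous_exp.comp (continuous_const.mul (continuous_ham x))
  · exact continuous_finsetSum _ fun y _ =>
      Real.continuous_exp.comp (continuous_const.mul (continuous_ham y))

lemma continuous_avg (β : ℝ) (F : Spin n → ℝ) : Continuous (fun g : Pair n → ℝ => avg β g F) := by
  unfold avg
  exact continuous_finsetSum _ fun x _ => (continuous_gibbs β x).mul continuous_const

lemma continuous_corr (β : ℝ) (i j : Fin n) :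
    Continuous (fun g : Pair n → ℝ => corr β g i j) := continuous_avg β _

lemma continuous_ovl (β : ℝ) : Continuous (fun g : Pair n → ℝ => ovl β g) := by
  unfold ovl
  refine continuous_const.mul ?_
  exact continuous_finsetSum _ fun i _ => continuous_finsetSum _ fun j _ =>
    (continuous_corr β i j).pow 2

lemma continuous_dAvg (β : ℝ) (p : Pair n) (F : Spin n → ℝ) :
    Continuous (fun G : Pair n → ℝ => dAvg β G p F) := by
  unfold dAvg
  exact continuous_const.mul
    ((continuous_avg β _).sub ((continuous_avg β _).mul (continuous_avg β _)))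

lemma continuous_dOvl (β : ℝ) (p : Pair n) :
    Continuous (fun G : Pair n → ℝ => dOvl β G p) := by
  unfold dOvl
  refine continuous_const.mul ?_
  exact continuous_finsetSum _ fun i _ => continuous_finsetSum _ fun j _ =>
    (continuous_const.mul (continuous_corr β i j)).mul (continuous_dAvg β p _)

/-! ### The weighted functions and the integration by parts -/

/-- The function `Q^(-r) ⟨c_p⟩`. -/
noncomputable def phi (β r : ℝ) (p : Pair n) (G : Pair n → ℝ) : ℝ :=
  ovl β G ^ (-r) * avg β G (cp p)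

/-- The derivative of `phi` in `g_p`. -/
noncomputable def dphi (β r : ℝ) (p : Pair n) (G : Pair n → ℝ) : ℝ :=
  dOvl β G p * (-r) * ovl β G ^ (-r - 1) * avg β G (cp p) + ovl β G ^ (-r) * dAvg β G p (cp p)

lemma hasDerivAt_phi (hn : 0 < n) (β r : ℝ) (p : Pair n) (g : Pair n → ℝ) (t : ℝ) :
    HasDerivAt (fun s => phi β r p (Function.update g p s)) (dphi β r p (Function.update g p t)) t := by
  have h1 := (hasDerivAt_ovl β g p t).rpow_const (p := -r)
    (Or.inl (ovl_pos hn β _).ne')
  exact h1.mul (hasDerivAt_avg β g p (cp p) t)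

lemma abs_avg_cp_le (β : ℝ) (G : Pair n → ℝ) (p : Pair n) : |avg β G (cp p)| ≤ 1 :=
  abs_avg_le β G fun x => (abs_cp p x).le

lemma ovl_rpow_le (hn : 0 < n) (β : ℝ) (G : Pair n → ℝ) {r : ℝ} (hr : 0 ≤ r) :
    ovl β G ^ (-r) ≤ (n : ℝ) ^ r := by
  have hn' : (0 : ℝ) < n := by exact_mod_cast hn
  have hQ := ovl_pos hn β G
  have h := Real.rpow_le_rpow (inv_pos.mpr hn').le (inv_n_le_ovl hn β G) hr
  rw [Real.rpow_neg hQ.le]
  rw [Real.inv_rpow hn'.le] at h
  have hnr : 0 < (n : ℝ) ^ r := Real.rpow_pos_of_pos hn' r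
  exact (inv_le_comm₀ (Real.rpow_pos_of_pos hQ r) hnr).mpr h

lemma ovl_rpow_nonneg (hn : 0 < n) (β : ℝ) (G : Pair n → ℝ) (r : ℝ) : 0 ≤ ovl β G ^ r :=
  Real.rpow_nonneg (ovl_pos hn β G).le r

lemma abs_dAvg_le (β : ℝ) (G : Pair n → ℝ) (p : Pair n) {F : Spin n → ℝ} (hF : ∀ x, |F x| ≤ 1) :
    |dAvg β G p F| ≤ |β| * kap n * 2 := by
  unfold dAvg
  rw [abs_mul, abs_mul, abs_of_nonneg (kap_nonneg (n := n))]
  refine mul_le_mul_of_nonneg_left ?_ (mul_nonneg (abs_nonneg _) kap_nonneg)
  have h1 : |avg β G (fun x => cp p x * F x)| ≤ 1 := by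
    refine abs_avg_le β G fun x => ?_
    rw [abs_mul, abs_cp, one_mul]
    exact hF x
  have h2 : |avg β G F| ≤ 1 := abs_avg_le β G hF
  have h3 := abs_avg_cp_le β G p
  have h4 : |avg β G F * avg β G (cp p)| ≤ 1 := by
    rw [abs_mul]
    exact mul_le_one₀ h2 (abs_nonneg _) h3
  calc _ ≤ |avg β G (fun x => cp p x * F x)| + |avg β G F * avg β G (cp p)| := abs_sub _ _
    _ ≤ 2 := by linarith

lemma abs_dOvl_le (hn : 0 < n) (β : ℝ) (G : Pair n → ℝ) (p : Pair n) :
    |dOvl β G p| ≤ |β| * kap n * 4 := by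
  have hn' : (0 : ℝ) < n := by exact_mod_cast hn
  unfold dOvl
  rw [abs_mul, abs_of_nonneg (by positivity : (0 : ℝ) ≤ ((n : ℝ) ^ 2)⁻¹)]
  have hterm : ∀ i j : Fin n, |2 * corr β G i j * dAvg β G p (cc i j)| ≤ |β| * kap n * 4 := by
    intro i j
    rw [abs_mul, abs_mul, abs_of_nonneg (by norm_num : (0 : ℝ) ≤ 2)]
    have h1 := abs_corr_le β G i j
    have h2 := abs_dAvg_le β G p (F := cc i j) (fun x => (abs_cc i j x).le)
    have h3 : 0 ≤ |β| * kap n * 2 := mul_nonneg (mul_nonneg (abs_nonneg _) kap_nonneg) (by norm_num)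
    calc 2 * |corr β G i j| * |dAvg β G p (cc i j)| ≤ 2 * 1 * (|β| * kap n * 2) := by
          refine mul_le_mul (by linarith) h2 (abs_nonneg _) (by norm_num)
      _ = _ := by ring
  have hs : |∑ i, ∑ j, (2 * corr β G i j * dAvg β G p (cc i j))| ≤ (n : ℝ) ^ 2 * (|β| * kap n * 4) := by
    calc _ ≤ ∑ i, |∑ j, (2 * corr β G i j * dAvg β G p (cc i j))| := Finset.abs_sum_le_sum_abs _ _
      _ ≤ ∑ _i : Fin n, ∑ _j : Fin n, (|β| * kap n * 4) := by
          refine Finset.sum_le_sum fun i _ => ?_
          exact (Finset.abs_sum_le_sum_abs _ _).trans (Finset.sum_le_sum fun j _ => hterm i j)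
      _ = _ := by simp; ring
  calc ((n : ℝ) ^ 2)⁻¹ * |∑ i, ∑ j, (2 * corr β G i j * dAvg β G p (cc i j))|
      ≤ ((n : ℝ) ^ 2)⁻¹ * ((n : ℝ) ^ 2 * (|β| * kap n * 4)) :=
        mul_le_mul_of_nonneg_left hs (by positivity)
    _ = _ := by field_simp

lemma abs_phi_le (hn : 0 < n) (β : ℝ) {r : ℝ} (hr : 0 ≤ r) (p : Pair n) (G : Pair n → ℝ) :
    |phi β r p G| ≤ (n : ℝ) ^ r := by
  unfold phi
  rw [abs_mul, abs_of_nonneg (ovl_rpow_nonneg hn β G _)]
  calc _ ≤ (n : ℝ) ^ r * 1 :=
        mul_le_mul (ovl_rpow_le hn β G hr) (abs_avg_cp_le β G p) (abs_nonneg _)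
          (by positivity)
    _ = _ := mul_one _

lemma abs_dphi_le (hn : 0 < n) (β : ℝ) {r : ℝ} (hr : 0 ≤ r) (p : Pair n) (G : Pair n → ℝ) :
    |dphi β r p G| ≤ (|β| * kap n * 4) * r * (n : ℝ) ^ (r + 1) + (n : ℝ) ^ r * (|β| * kap n * 2) := by
  unfold dphi
  refine (abs_add_le _ _).trans (add_le_add ?_ ?_)
  · rw [abs_mul, abs_mul, abs_mul, abs_neg, abs_of_nonneg hr,
      abs_of_nonneg (ovl_rpow_nonneg hn β G _)]
    have h1 := abs_dOvl_le hn β G p
    have h2 := abs_avg_cp_le β G p
    have h3 : ovl β G ^ (-r - 1) ≤ (n : ℝ) ^ (r + 1) := by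
      have := ovl_rpow_le hn β G (r := r + 1) (by linarith)
      rwa [show -(r + 1) = -r - 1 by ring] at this
    have h4 : (0 : ℝ) ≤ (n : ℝ) ^ (r + 1) := by positivity
    calc |dOvl β G p| * r * ovl β G ^ (-r - 1) * |avg β G (cp p)|
        ≤ (|β| * kap n * 4) * r * (n : ℝ) ^ (r + 1) * 1 := by
          have hk : 0 ≤ (|β| * kap n * 4) * r :=
            mul_nonneg (mul_nonneg (mul_nonneg (abs_nonneg _) kap_nonneg) (by norm_num)) hr
          refine mul_le_mul ?_ h2 (abs_nonneg _) (mul_nonneg hk h4)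
          refine mul_le_mul ?_ h3 (ovl_rpow_nonneg hn β G _) hk
          exact mul_le_mul_of_nonneg_right h1 hr
      _ = _ := mul_one _
  · rw [abs_mul, abs_of_nonneg (ovl_rpow_nonneg hn β G _)]
    have h1 := abs_dAvg_le β G p (F := cp p) (fun x => (abs_cp p x).le)
    exact mul_le_mul (ovl_rpow_le hn β G hr) h1 (abs_nonneg _) (by positivity)

lemma continuous_phi (hn : 0 < n) (β r : ℝ) (p : Pair n) :
    Continuous (fun G : Pair n → ℝ => phi β r p G) := by
  unfold phi
  refine Continuous.mul ?_ (continuous_avg β _)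
  exact (continuous_ovl β).rpow_const fun G => Or.inl (ovl_pos hn β G).ne'

lemma continuous_dphi (hn : 0 < n) (β r : ℝ) (p : Pair n) :
    Continuous (fun G : Pair n → ℝ => dphi β r p G) := by
  unfold dphi
  refine Continuous.add ?_ ?_
  · refine Continuous.mul (Continuous.mul ((continuous_dOvl β p).mul continuous_const) ?_)
      (continuous_avg β _)
    exact (continuous_ovl β).rpow_const fun G => Or.inl (ovl_pos hn β G).ne'
  · refine Continuous.mul ?_ (continuous_dAvg β p _)
    exact (continuous_ovl β).rpow_const fun G => Or.inl (ovl_pos hn β G).ne'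

lemma ibp_phi (hn : 0 < n) (β : ℝ) {r : ℝ} (hr : 0 ≤ r) (p : Pair n) :
    ∫ g, g p * phi β r p g ∂disorder n = ∫ g, dphi β r p g ∂disorder n :=
  gaussian_ibp p (continuous_phi hn β r p).measurable (continuous_dphi hn β r p).measurable
    (abs_phi_le hn β hr p) (abs_dphi_le hn β hr p) (hasDerivAt_phi hn β r p)

/-! ### The Gaussian computation for the first moment -/

lemma integrable_coord (p : Pair n) : Integrable (fun g : Pair n → ℝ => g p) (disorder n) := by
  have : Integrable id (gaussianReal 0 1) :=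
    memLp_one_iff_integrable.mp (memLp_id_gaussianReal' (μ := 0) (v := 1) 1 (by simp))
  exact integrable_eval (μ := fun _ : Pair n => gaussianReal 0 1) (i := p) this

lemma exp_mul_ham (lam : ℝ) (g : Pair n → ℝ) (x : Spin n) :
    Real.exp (lam * ham g x) = ∏ p : Pair n, Real.exp ((lam * kap n * cp p x) * g p) := by
  rw [← Real.exp_sum, ham_eq]
  congr 1
  rw [Finset.mul_sum, Finset.mul_sum]
  refine Finset.sum_congr rfl fun p _ => ?_
  ring

lemma integrable_exp_ham (lam : ℝ) (x : Spin n) :
    Integrable (fun g : Pair n → ℝ => Real.exp (lam * ham g x)) (disorder n) := by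
  simp only [exp_mul_ham]
  exact Integrable.fintype_prod (f := fun p t => Real.exp ((lam * kap n * cp p x) * t))
    (fun p => integrable_exp_mul_gaussianReal _)

lemma integral_exp_gauss (s : ℝ) :
    ∫ t, Real.exp (s * t) ∂(gaussianReal 0 1) = Real.exp (s ^ 2 / 2) := by
  have := congrFun (mgf_id_gaussianReal (μ := 0) (v := 1)) s
  simp only [mgf, id, zero_mul, NNReal.coe_one, one_mul, zero_add] at this
  exact this

lemma integral_exp_ham (hn : 0 < n) (lam : ℝ) (x : Spin n) :
    ∫ g, Real.exp (lam * ham g x) ∂disorder n = Real.exp (lam ^ 2 * (n - 1) / 4) := by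
  have hn' : (n : ℝ) ≠ 0 := by exact_mod_cast hn.ne'
  simp only [exp_mul_ham]
  have h := integral_fintype_prod_eq_prod (𝕜 := ℝ)
    (μ := fun _ : Pair n => gaussianReal 0 1)
    (fun (p : Pair n) t => Real.exp ((lam * kap n * cp p x) * t))
  rw [disorder, h]
  simp only [integral_exp_gauss]
  rw [← Real.exp_sum]
  congr 1
  have hc : ∀ p : Pair n, (lam * kap n * cp p x) ^ 2 / 2 = lam ^ 2 * (n : ℝ)⁻¹ / 2 := by
    intro p
    have : cp p x ^ 2 = 1 := by rw [sq, cp_mul_self]
    rw [mul_pow, mul_pow, this, kap_sq hn]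
    ring
  simp only [hc, Finset.sum_const, Finset.card_univ, nsmul_eq_mul, card_pairs]
  field_simp
  ring

/-- The exponential sum controlling the maximal energy. -/
noncomputable def expSum (a : ℝ) (g : Pair n → ℝ) : ℝ :=
  ∑ x, Real.exp (2 * a * (ham g x - a * n))

lemma expSum_nonneg (a : ℝ) (g : Pair n → ℝ) : 0 ≤ expSum a g :=
  Finset.sum_nonneg fun _ _ => (Real.exp_pos _).le

lemma integrable_expSum (a : ℝ) : Integrable (fun g : Pair n → ℝ => expSum a g) (disorder n) := by
  unfold expSum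
  refine integrable_finsetSum _ fun x _ => ?_
  have : (fun g : Pair n → ℝ => Real.exp (2 * a * (ham g x - a * n))) =
      fun g => Real.exp (2 * a * ham g x) * Real.exp (-(2 * a * (a * n))) := by
    funext g
    rw [← Real.exp_add]
    congr 1
    ring
  rw [this]
  exact (integrable_exp_ham _ x).mul_const _

lemma integral_expSum_le (hn : 0 < n) {a : ℝ} (ha : Real.sqrt (Real.log 2) < a) :
    ∫ g, expSum a g ∂disorder n ≤ 1 := by
  have hn' : (0 : ℝ) < n := by exact_mod_cast hn
  have ha0 : 0 < a := lt_of_le_of_lt (Real.sqrt_nonneg _) ha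
  have hlog : Real.log 2 < a ^ 2 := by
    have := Real.sqrt_lt' ha0 |>.mp ha
    exact this
  unfold expSum
  rw [integral_finsetSum]
  · have hterm : ∀ x : Spin n, ∫ g, Real.exp (2 * a * (ham g x - a * n)) ∂disorder n =
        Real.exp (a ^ 2 * (n - 1) - 2 * a ^ 2 * n) := by
      intro x
      have : (fun g : Pair n → ℝ => Real.exp (2 * a * (ham g x - a * n))) =
          fun g => Real.exp (2 * a * ham g x) * Real.exp (-(2 * a * (a * n))) := by
        funext g
        rw [← Real.exp_add]
        congr 1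
        ring
      rw [this, integral_mul_const, integral_exp_ham hn, ← Real.exp_add]
      congr 1
      ring
    simp only [hterm, Finset.sum_const, Finset.card_univ, nsmul_eq_mul]
    have hcard : (Fintype.card (Spin n) : ℝ) = Real.exp (n * Real.log 2) := by
      have : Fintype.card (Spin n) = 2 ^ n := by simp
      rw [this]
      rw [mul_comm, Real.exp_mul, Real.exp_log (by norm_num : (0 : ℝ) < 2)]
      simp
    rw [hcard, ← Real.exp_add]
    rw [Real.exp_le_one_iff]
    nlinarith [sq_nonneg a, mul_pos hn' (sub_pos.mpr hlog)]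
  · intro x _
    have : (fun g : Pair n → ℝ => Real.exp (2 * a * (ham g x - a * n))) =
        fun g => Real.exp (2 * a * ham g x) * Real.exp (-(2 * a * (a * n))) := by
      funext g
      rw [← Real.exp_add]
      congr 1
      ring
    rw [this]
    exact (integrable_exp_ham _ x).mul_const _

lemma avg_ham_le (β : ℝ) (g : Pair n → ℝ) {a : ℝ} (ha : 0 < a) :
    avg β g (ham g) ≤ a * n + (2 * a)⁻¹ * expSum a g := by
  have h : ∀ x, ham g x ≤ a * n + (2 * a)⁻¹ * expSum a g := by
    intro x
    have h2a : 0 < 2 * a := by positivity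
    have h1 : 2 * a * (ham g x - a * n) ≤ Real.exp (2 * a * (ham g x - a * n)) := by
      have := Real.add_one_le_exp (2 * a * (ham g x - a * n))
      linarith
    have h2 : Real.exp (2 * a * (ham g x - a * n)) ≤ expSum a g :=
      Finset.single_le_sum (f := fun x => Real.exp (2 * a * (ham g x - a * n)))
        (fun _ _ => (Real.exp_pos _).le) (Finset.mem_univ x)
    have h3 : ham g x - a * n ≤ (2 * a)⁻¹ * expSum a g := by
      rw [le_inv_mul_iff₀ h2a]
      linarith
    linarith
  have := avg_mono β g h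
  rwa [avg_const] at this

lemma avg_ham_eq (β : ℝ) (g : Pair n → ℝ) :
    avg β g (ham g) = kap n * ∑ p, g p * avg β g (cp p) := by
  have : ham g = fun x => kap n * ∑ p, g p * cp p x := rfl
  rw [this, avg_mul_left, avg_sum]
  congr 1
  refine Finset.sum_congr rfl fun p _ => ?_
  rw [avg_mul_left]

/-! ### The pointwise lower bound -/

lemma sum_dphi_ge (hn : 0 < n) {β r : ℝ} (hβ : 0 ≤ β) (hr : 0 ≤ r) (G : Pair n → ℝ) :
    (β * n / 2 - r * β * n) * ovl β G ^ (-r) - (β * n / 2) * (ovl β G ^ (-r) * ovl β G) ≤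
      kap n * ∑ p, dphi β r p G := by
  have hn' : (0 : ℝ) < n := by exact_mod_cast hn
  have hQ := ovl_pos hn β G
  set Q := ovl β G with hQdef
  set y := Q ^ (-r) with hy
  have hy0 : 0 ≤ y := Real.rpow_nonneg hQ.le _
  have hk2 := kap_sq (n := n) hn
  -- first term
  have h1 : kap n * ∑ p : Pair n, dOvl β G p * avg β G (cp p) ≤ β * n * Q := by
    rw [sum_dOvl_mul]
    have hv := var_wf_le hn β G
    have e : kap n * (((n : ℝ) ^ 2)⁻¹ * (β * kap n) * var β G (wf β G)) =
        β * ((n : ℝ)⁻¹ * ((n : ℝ) ^ 2)⁻¹ * var β G (wf β G)) := by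
      rw [← hk2]
      ring
    rw [e]
    refine (mul_le_mul_of_nonneg_left (mul_le_mul_of_nonneg_left hv (by positivity)) hβ).trans ?_
    have : (n : ℝ)⁻¹ * ((n : ℝ) ^ 2)⁻¹ * ((n : ℝ) ^ 4 * ovl β G) = n * Q := by
      field_simp
      rw [hQdef]
    rw [this]
    apply le_of_eq; ring
  -- second term
  have h2 : kap n * ∑ p : Pair n, dAvg β G p (cp p) = β * n * (1 - Q) / 2 := by
    have e1 : ∀ p : Pair n, dAvg β G p (cp p) = β * kap n * (1 - avg β G (cp p) ^ 2) := by
      intro p
      have e0 : (fun x => cp p x * cp p x) = fun _ => (1 : ℝ) := funext fun x => cp_mul_self p x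
      unfold dAvg
      rw [e0, avg_const, sq]
    simp only [e1]
    rw [← Finset.mul_sum, Finset.sum_sub_distrib]
    simp only [Finset.sum_const, Finset.card_univ, nsmul_eq_mul, mul_one, card_pairs]
    have e2 := sum_corr_sq β G
    have e3 : ∑ i, ∑ j, corr β G i j ^ 2 = (n : ℝ) ^ 2 * Q := by
      rw [hQdef, ovl]
      field_simp
    have e4 : ∑ p : Pair n, avg β G (cp p) ^ 2 = ((n : ℝ) ^ 2 * Q - n) / 2 := by
      linarith
    rw [e4]
    calc kap n * (β * kap n * (((n : ℝ) ^ 2 - n) / 2 - ((n : ℝ) ^ 2 * Q - n) / 2))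
        = β * kap n ^ 2 * (((n : ℝ) ^ 2 - (n : ℝ) ^ 2 * Q) / 2) := by ring
      _ = _ := by
        rw [hk2]
        field_simp
  -- assemble
  have hsum : kap n * ∑ p, dphi β r p G =
      (-r) * (Q ^ (-r - 1)) * (kap n * ∑ p : Pair n, dOvl β G p * avg β G (cp p)) +
        y * (kap n * ∑ p : Pair n, dAvg β G p (cp p)) := by
    have hp : ∀ p : Pair n, kap n * dphi β r p G =
        (-r) * (Q ^ (-r - 1)) * (kap n * (dOvl β G p * avg β G (cp p))) +
          y * (kap n * dAvg β G p (cp p)) := by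
      intro p
      simp only [dphi, ← hQdef, ← hy]
      ring
    rw [Finset.mul_sum, Finset.sum_congr rfl (fun p _ => hp p), Finset.sum_add_distrib,
      ← Finset.mul_sum, ← Finset.mul_sum, ← Finset.mul_sum, ← Finset.mul_sum]
  rw [hsum, h2]
  have hpow : Q ^ (-r - 1) = y / Q := Real.rpow_sub_one hQ.ne' _
  have hterm : (-r) * (Q ^ (-r - 1)) * (kap n * ∑ p : Pair n, dOvl β G p * avg β G (cp p)) ≥
      (-r) * (y / Q) * (β * n * Q) := by
    rw [hpow]
    have hnn : 0 ≤ r * (y / Q) := mul_nonneg hr (div_nonneg hy0 hQ.le)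
    have := mul_le_mul_of_nonneg_left h1 hnn
    nlinarith
  have hcancel : (-r) * (y / Q) * (β * n * Q) = -(r * β * n * y) := by
    field_simp
  rw [hcancel] at hterm
  nlinarith

/-! ### The negative moment bound -/

/-- The negative moment bound for `Q` (uniform in `n`). -/
theorem integral_ovl_rpow_le (hn : 0 < n) {β r a : ℝ} (hβ : 0 ≤ β) (hr : 0 < r) (hr1 : r ≤ 1)
    (ha : Real.sqrt (Real.log 2) < a) (hcrit : a + β * r < β / 2) :
    ∫ g, ovl β g ^ (-r) ∂disorder n ≤ (β / 2 + 1 / (2 * a)) / (β / 2 - a - β * r) := by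
  have hn' : (0 : ℝ) < n := by exact_mod_cast hn
  have hn1 : (1 : ℝ) ≤ n := by exact_mod_cast hn
  have ha0 : 0 < a := lt_of_le_of_lt (Real.sqrt_nonneg _) ha
  have hpi : IsProbabilityMeasure (disorder n) := by
    unfold disorder
    infer_instance
  set ψ : (Pair n → ℝ) → ℝ := fun g => ovl β g ^ (-r) with hψ
  have hψc : Continuous ψ :=
    (continuous_ovl β).rpow_const fun G => Or.inl (ovl_pos hn β G).ne'
  have hψ0 : ∀ g, 0 ≤ ψ g := fun g => ovl_rpow_nonneg hn β g _
  have hψle : ∀ g, ψ g ≤ (n : ℝ) ^ r := fun g => ovl_rpow_le hn β g hr.le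
  have hψint : Integrable ψ (disorder n) := by
    refine Integrable.mono' (integrable_const ((n : ℝ) ^ r)) hψc.aestronglyMeasurable ?_
    refine Eventually.of_forall fun g => ?_
    rw [Real.norm_eq_abs, abs_of_nonneg (hψ0 g)]
    exact hψle g
  set Qp : (Pair n → ℝ) → ℝ := fun g => ψ g * ovl β g with hQp
  have hQpc : Continuous Qp := hψc.mul (continuous_ovl β)
  have hQple : ∀ g, Qp g ≤ 1 := by
    intro g
    have hQ := ovl_pos hn β g
    have : Qp g = ovl β g ^ (-r + 1) := by
      rw [Real.rpow_add_one hQ.ne']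
    rw [this]
    exact Real.rpow_le_one hQ.le (ovl_le_one β g) (by linarith)
  have hQp0 : ∀ g, 0 ≤ Qp g := fun g => mul_nonneg (hψ0 g) (ovl_pos hn β g).le
  have hQpint : Integrable Qp (disorder n) := by
    refine Integrable.mono' (integrable_const (1 : ℝ)) hQpc.aestronglyMeasurable ?_
    refine Eventually.of_forall fun g => ?_
    rw [Real.norm_eq_abs, abs_of_nonneg (hQp0 g)]
    exact hQple g
  -- the integrand `g_p phi_p`
  have hgphi : ∀ p : Pair n, Integrable (fun g => g p * phi β r p g) (disorder n) := by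
    intro p
    refine Integrable.mono' ((integrable_coord p).norm.mul_const ((n : ℝ) ^ r)) ?_ ?_
    · exact (integrable_coord p).aestronglyMeasurable.mul
        (continuous_phi hn β r p).aestronglyMeasurable
    · refine Eventually.of_forall fun g => ?_
      rw [Real.norm_eq_abs, abs_mul, Real.norm_eq_abs]
      exact mul_le_mul_of_nonneg_left (abs_phi_le hn β hr.le p g) (abs_nonneg _)
  have hdphi : ∀ p : Pair n, Integrable (fun g => dphi β r p g) (disorder n) := by
    intro p
    refine Integrable.mono' (integrable_const ((|β| * kap n * 4) * r * (n : ℝ) ^ (r + 1) +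
      (n : ℝ) ^ r * (|β| * kap n * 2))) (continuous_dphi hn β r p).aestronglyMeasurable ?_
    exact Eventually.of_forall fun g => abs_dphi_le hn β hr.le p g
  have hEH : ∀ g, ψ g * avg β g (ham g) = kap n * ∑ p, g p * phi β r p g := by
    intro g
    rw [avg_ham_eq]
    simp only [phi, Finset.mul_sum, hψ]
    refine Finset.sum_congr rfl fun p _ => ?_
    ring
  have hEHint : Integrable (fun g => ψ g * avg β g (ham g)) (disorder n) := by
    simp only [hEH]
    exact (integrable_finsetSum _ fun p _ => hgphi p).const_mul _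
  -- identity from integration by parts
  have hA : ∫ g, ψ g * avg β g (ham g) ∂disorder n =
      ∫ g, kap n * ∑ p, dphi β r p g ∂disorder n := by
    simp only [hEH]
    rw [integral_const_mul, integral_const_mul, integral_finsetSum _ fun p _ => hgphi p,
      integral_finsetSum _ fun p _ => hdphi p]
    congr 1
    exact Finset.sum_congr rfl fun p _ => ibp_phi hn β hr.le p
  -- lower bound
  have hB : (β * n / 2 - r * β * n) * (∫ g, ψ g ∂disorder n) -
      (β * n / 2) * (∫ g, Qp g ∂disorder n) ≤ ∫ g, kap n * ∑ p, dphi β r p g ∂disorder n := by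
    rw [← integral_const_mul, ← integral_const_mul, ← integral_sub]
    · refine integral_mono ?_ ?_ fun g => sum_dphi_ge hn hβ hr.le g
      · exact (hψint.const_mul _).sub (hQpint.const_mul _)
      · exact (integrable_finsetSum _ fun p _ => hdphi p).const_mul _
    · exact hψint.const_mul _
    · exact hQpint.const_mul _
  -- upper bound
  have hC : ∫ g, ψ g * avg β g (ham g) ∂disorder n ≤
      a * n * (∫ g, ψ g ∂disorder n) + (n : ℝ) ^ r * (2 * a)⁻¹ := by
    have h1 : ∀ g, ψ g * avg β g (ham g) ≤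
        a * n * ψ g + (n : ℝ) ^ r * (2 * a)⁻¹ * expSum a g := by
      intro g
      have h2 := avg_ham_le β g ha0
      have h3 : 0 ≤ (2 * a)⁻¹ * expSum a g :=
        mul_nonneg (by positivity) (expSum_nonneg a g)
      calc ψ g * avg β g (ham g) ≤ ψ g * (a * n + (2 * a)⁻¹ * expSum a g) :=
            mul_le_mul_of_nonneg_left h2 (hψ0 g)
        _ = a * n * ψ g + ψ g * ((2 * a)⁻¹ * expSum a g) := by ring
        _ ≤ a * n * ψ g + (n : ℝ) ^ r * ((2 * a)⁻¹ * expSum a g) := by
            gcongr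
            exact hψle g
        _ = _ := by ring
    have hadd : Integrable (fun g => a * n * ψ g + (n : ℝ) ^ r * (2 * a)⁻¹ * expSum a g)
        (disorder n) :=
      (hψint.const_mul (a * n)).add ((integrable_expSum a).const_mul ((n : ℝ) ^ r * (2 * a)⁻¹))
    have h4 := integral_mono hEHint hadd h1
    refine h4.trans ?_
    rw [integral_add (hψint.const_mul (a * n))
      ((integrable_expSum a).const_mul ((n : ℝ) ^ r * (2 * a)⁻¹)),
      integral_const_mul, integral_const_mul]
    have h5 := integral_expSum_le hn ha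
    have h6 : 0 ≤ (n : ℝ) ^ r * (2 * a)⁻¹ := by positivity
    have := mul_le_mul_of_nonneg_left h5 h6
    linarith
  -- bound for `Q^(1-r)`
  have hD : ∫ g, Qp g ∂disorder n ≤ 1 := by
    have := integral_mono hQpint (integrable_const (1 : ℝ)) hQple
    simpa using this
  -- conclude
  have hnr : (n : ℝ) ^ r ≤ n := by
    have := Real.rpow_le_rpow_of_exponent_le hn1 hr1
    simpa using this
  set I := ∫ g, ψ g ∂disorder n with hI
  have hden : 0 < β / 2 - a - β * r := by linarith
  rw [le_div_iff₀ hden]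
  have hmain : (β * n / 2 - r * β * n) * I - (β * n / 2) * 1 ≤
      a * n * I + (n : ℝ) ^ r * (2 * a)⁻¹ := by
    have h7 : (β * n / 2) * (∫ g, Qp g ∂disorder n) ≤ (β * n / 2) * 1 :=
      mul_le_mul_of_nonneg_left hD (by positivity)
    rw [hA] at hC
    linarith
  have h8 : (n : ℝ) ^ r * (2 * a)⁻¹ ≤ n * (2 * a)⁻¹ :=
    mul_le_mul_of_nonneg_right hnr (by positivity)
  have h9 : (n : ℝ) * (I * (β / 2 - a - β * r)) ≤ n * (β / 2 + 1 / (2 * a)) := by
    have e : 1 / (2 * a) = (2 * a)⁻¹ := by rw [one_div]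
    rw [e]
    nlinarith
  exact le_of_mul_le_mul_left h9 hn'

end Vale.Agent.Lib.P150
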